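import Vale.Agent.P126.Polar

open scoped Pointwise RealInnerProductSpace

namespace Vale.Agent.P126

variable {n : ℕ}

/-- One scale: cover `r K` by translates of `T` given a cover of `(r / 2) K`. -/
lemma step_cov {K T : Set (EuclideanSpace ℝ (Fin n))} (hK : IsSymBody K) (hT : IsSymBody T)
    {r : ℝ} {m k : ℕ} (h1 : Cov ((r / 2) • K) T m)
    (h2 : Cov ((2 * r) • K ∩ (4 : ℝ) • T) T k) : Cov (r • K) T (m * k) := by
  classical
  have hcov2 : Cov (r • K) ((2 : ℝ) • T) m := by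
    obtain ⟨t, ht, hc⟩ := h1.exists_mem
    refine Cov.of_forall (t.image fun x => (2 : ℝ) • x) (Finset.card_image_le.trans ht) ?_
    rintro _ ⟨y, hy, rfl⟩
    obtain ⟨x, hx, hyx⟩ := hc ((r / 2) • y) ⟨y, hy, rfl⟩
    refine ⟨(2 : ℝ) • x, Finset.mem_image_of_mem _ hx, ⟨_, hyx, ?_⟩⟩
    simp only
    rw [smul_sub, smul_smul]; congr 2; ring
  refine hcov2.mul fun x => ?_
  by_cases hne : (r • K ∩ (x +ᵥ (2 : ℝ) • T)).Nonempty
  · obtain ⟨z, hz1, hz2⟩ := hne
    rw [mem_vadd_iff] at hz2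
    obtain ⟨t, ht, hc⟩ := h2.exists_mem
    refine Cov.of_forall (t.image fun y => y + z) (Finset.card_image_le.trans ht) ?_
    rintro a ⟨ha1, ha2⟩
    rw [mem_vadd_iff] at ha2
    have hdiff : a - z ∈ (2 * r) • K ∩ (4 : ℝ) • T := by
      constructor
      · obtain ⟨k1, hk1, rfl⟩ := ha1
        obtain ⟨k2, hk2, rfl⟩ := hz1
        refine ⟨(1 / 2 : ℝ) • k1 + (1 / 2 : ℝ) • (-k2), hK.convex hk1 (hK.symm _ hk2)
          (by norm_num) (by norm_num) (by norm_num), ?_⟩
        simp only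
        module
      · obtain ⟨t1, ht1, ht1'⟩ := ha2
        obtain ⟨t2, ht2, ht2'⟩ := hz2
        refine ⟨(1 / 2 : ℝ) • t1 + (1 / 2 : ℝ) • (-t2), hT.convex ht1 (hT.symm _ ht2)
          (by norm_num) (by norm_num) (by norm_num), ?_⟩
        simp only at ht1' ht2' ⊢
        have : a - z = (a - x) - (z - x) := by abel
        rw [this, ← ht1', ← ht2']
        module
    obtain ⟨y, hy, hay⟩ := hc _ hdiff
    refine ⟨y + z, Finset.mem_image_of_mem _ hy, ?_⟩
    have : a - (y + z) = a - z - y := by abel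
    rwa [this]
  · rw [Set.not_nonempty_iff_eq_empty] at hne
    rw [hne]
    exact ⟨∅, by simp, by simp⟩

/-- The dual entropy at scale `s`. -/
noncomputable def psi (K T : Set (EuclideanSpace ℝ (Fin n))) (s : ℝ) : ℝ :=
  Real.log (coverNum (polarBody T) (s • polarBody K))

lemma exists_cov_polar {K T : Set (EuclideanSpace ℝ (Fin n))} (hK : IsSymBody K)
    (hT : IsSymBody T) {s : ℝ} (hs : 0 < s) : ∃ m, Cov (polarBody T) (s • polarBody K) m :=
  exists_cov hT.polar.compact (hK.polar.smul hs).nonempty_interior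

lemma coverNum_pos {K T : Set (EuclideanSpace ℝ (Fin n))} (hK : IsSymBody K)
    (hT : IsSymBody T) {s : ℝ} (hs : 0 < s) :
    1 ≤ coverNum (polarBody T) (s • polarBody K) := by
  obtain ⟨m, hm⟩ := exists_cov_polar hK hT hs
  exact (cov_coverNum hm).pos ⟨0, zero_mem_polarBody T⟩

lemma psi_nonneg (K T : Set (EuclideanSpace ℝ (Fin n))) (s : ℝ) : 0 ≤ psi K T s :=
  Real.log_natCast_nonneg _

/-- One scale estimate with dual entropy differences. -/
lemma scale_bound {K T : Set (EuclideanSpace ℝ (Fin n))} (hK : IsSymBody K) (hT : IsSymBody T)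
    {s : ℝ} (hs : 0 < s) :
    ∃ m : ℕ, 1 ≤ m ∧ Cov ((2 * (1 / (128 * s))) • K ∩ (4 : ℝ) • T) T m ∧
      Real.log m ≤ 2 ^ 19 * (psi K T (s / 2048) - psi K T s) ^ 2 ∧
      0 ≤ psi K T (s / 2048) - psi K T s := by
  obtain ⟨m0, hm0⟩ := exists_cov_polar hK hT (show 0 < s / 2048 by positivity)
  obtain ⟨m₁, m₂, hmul, hc1, hc2⟩ := supermult hT.polar.convex hT.polar.symm
    ⟨0, zero_mem_polarBody T⟩ hK.polar.convex hK.polar.symm ⟨0, zero_mem_polarBody K⟩ hs
    (cov_coverNum hm0)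
  have hs' : s = 1 / (128 * (1 / (128 * s))) := by field_simp
  obtain ⟨m, hm1, hmc, hml⟩ := local_cov hK hT (r := 1 / (128 * s)) (by positivity) (R := m₁)
    (by rw [← hs']; exact hc1)
  have hne : (polarBody T).Nonempty := ⟨0, zero_mem_polarBody T⟩
  have hp1 : 1 ≤ m₁ := hc1.pos hne
  have hp2 : 1 ≤ m₂ := hc2.pos hne
  have hpN : 1 ≤ coverNum (polarBody T) (s • polarBody K) := coverNum_pos hK hT hs
  have hle2 : coverNum (polarBody T) (s • polarBody K) ≤ m₂ := coverNum_le hc2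
  have hlog : Real.log m₁ + psi K T s ≤ psi K T (s / 2048) := by
    unfold psi
    have hm1' : (0 : ℝ) < m₁ := by exact_mod_cast hp1
    have hpN' : (0 : ℝ) < coverNum (polarBody T) (s • polarBody K) := by exact_mod_cast hpN
    rw [← Real.log_mul hm1'.ne' hpN'.ne']
    apply Real.log_le_log (by positivity)
    have : m₁ * coverNum (polarBody T) (s • polarBody K) ≤
        coverNum (polarBody T) ((s / 2048) • polarBody K) :=
      (Nat.mul_le_mul_left _ hle2).trans hmul
    exact_mod_cast this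
  have h0 : 0 ≤ Real.log m₁ := Real.log_natCast_nonneg _
  refine ⟨m, hm1, hmc, hml.trans ?_, by linarith⟩
  have : Real.log m₁ ^ 2 ≤ (psi K T (s / 2048) - psi K T s) ^ 2 :=
    pow_le_pow_left₀ h0 (by linarith) 2
  linarith

/-- Iterating over dyadic scales. -/
lemma iterate_cov {K T : Set (EuclideanSpace ℝ (Fin n))} (hK : IsSymBody K) (hT : IsSymBody T)
    (J : ℕ) : ∀ r : ℝ, 0 < r → (r / 2 ^ J) • K ⊆ T →
      ∃ m : ℕ, 1 ≤ m ∧ Cov (r • K) T m ∧
        Real.log m ≤ 2 ^ 19 * ∑ i ∈ Finset.range J,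
          (psi K T (2 ^ i / (128 * r) / 2048) - psi K T (2 ^ i / (128 * r))) ^ 2 := by
  induction J with
  | zero =>
    intro r hr hsub
    refine ⟨1, le_rfl, Cov.of_forall {0} (by simp) ?_, by simp⟩
    intro a ha
    refine ⟨0, by simp, ?_⟩
    have := hsub (a := a) (by simpa using ha)
    simpa using this
  | succ J ih =>
    intro r hr hsub
    obtain ⟨m, hm1, hmc, hml⟩ := ih (r / 2) (by positivity) (by
      have : r / 2 / 2 ^ J = r / 2 ^ (J + 1) := by rw [pow_succ]; field_simp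
      rwa [this])
    obtain ⟨k, hk1, hkc, hkl, _⟩ := scale_bound hK hT (s := 1 / (128 * r)) (by positivity)
    have hrr : 1 / (128 * (1 / (128 * r))) = r := by field_simp
    rw [hrr] at hkc
    refine ⟨m * k, Nat.mul_pos hm1 hk1, step_cov hK hT hmc hkc, ?_⟩
    have hm' : (m : ℝ) ≠ 0 := by positivity
    have hk' : (k : ℝ) ≠ 0 := by positivity
    rw [Nat.cast_mul, Real.log_mul hm' hk', Finset.sum_range_succ']
    have hre : ∀ i : ℕ, (2 : ℝ) ^ i / (128 * (r / 2)) = 2 ^ (i + 1) / (128 * r) := by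
      intro i; rw [pow_succ]; field_simp
    simp only [hre] at hml
    simp only [pow_zero]
    linarith

lemma telescoping_sum (a : ℕ → ℝ) (hnn : ∀ i, 0 ≤ a i) (hanti : ∀ i, a (i + 1) ≤ a i) (k J : ℕ) :
    ∑ i ∈ Finset.range J, (a i - a (i + k)) ≤ k * a 0 := by
  have hle : ∀ i, a i ≤ a 0 := by
    intro i
    induction i with
    | zero => exact le_rfl
    | succ i ih => exact (hanti i).trans ih
  induction k with
  | zero => simp
  | succ k ih =>
    have h1 : ∑ i ∈ Finset.range J, (a i - a (i + (k + 1))) =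
        ∑ i ∈ Finset.range J, (a i - a (i + k)) +
          ∑ i ∈ Finset.range J, (a (i + k) - a (i + 1 + k)) := by
      rw [← Finset.sum_add_distrib]
      apply Finset.sum_congr rfl
      intro i _
      rw [show i + (k + 1) = i + 1 + k by ring]; ring
    have h2 : ∑ i ∈ Finset.range J, (a (i + k) - a (i + 1 + k)) = a (0 + k) - a (J + k) :=
      Finset.sum_range_sub' (fun i => a (i + k)) J
    rw [h1, h2]
    push_cast
    have := hle (0 + k)
    have := hnn (J + k)
    linarith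

/-- `log N(K, T) ≤ 2 ^ 26 (log N(T°, 2⁻¹⁸ K°))²`. -/
theorem main_half {K T : Set (EuclideanSpace ℝ (Fin n))} (hK : IsSymBody K) (hT : IsSymBody T) :
    Real.log (coverNum K T) ≤ 2 ^ 26 * (psi K T (1 / 2 ^ 18)) ^ 2 := by
  -- large `J`
  obtain ⟨J, hJ⟩ : ∃ J : ℕ, ((1 : ℝ) / 2 ^ J) • K ⊆ T := by
    obtain ⟨R, hR⟩ := isBounded_iff_forall_norm_le.1 hK.compact.isBounded
    obtain ⟨ε, hε, hball⟩ :=
      Metric.mem_nhds_iff.1 (mem_interior_iff_mem_nhds.1 hT.zero_mem_interior)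
    have hR0 : 0 ≤ R := le_trans (norm_nonneg _) (hR 0 hK.zero_mem)
    obtain ⟨J, hJ⟩ := pow_unbounded_of_one_lt ((R + 1) / ε) (one_lt_two : (1 : ℝ) < 2)
    refine ⟨J, ?_⟩
    rintro _ ⟨x, hx, rfl⟩
    apply hball
    rw [Metric.mem_ball, dist_zero_right]
    simp only
    rw [norm_smul, Real.norm_of_nonneg (by positivity), one_div, inv_mul_lt_iff₀ (by positivity)]
    rw [div_lt_iff₀ hε] at hJ
    have := hR x hx
    linarith
  obtain ⟨m, hm1, hmc, hml⟩ := iterate_cov hK hT J 1 one_pos hJ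
  rw [one_smul] at hmc
  -- the sequence of dual entropies
  set a : ℕ → ℝ := fun i => psi K T (2 ^ i / 2 ^ 18) with ha
  have hanti : ∀ i, a (i + 1) ≤ a i := by
    intro i
    simp only [ha, psi]
    have hs : (0 : ℝ) < 2 ^ (i + 1) / 2 ^ 18 := by positivity
    have hs' : (0 : ℝ) < 2 ^ i / 2 ^ 18 := by positivity
    have hpos := coverNum_pos hK hT hs
    obtain ⟨m', hm'⟩ := exists_cov_polar hK hT hs'
    apply Real.log_le_log (by exact_mod_cast hpos)
    have : coverNum (polarBody T) (((2 : ℝ) ^ (i + 1) / 2 ^ 18) • polarBody K) ≤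
        coverNum (polarBody T) (((2 : ℝ) ^ i / 2 ^ 18) • polarBody K) := by
      apply coverNum_le
      refine (cov_coverNum hm').mono (Set.Subset.refl _) ?_ le_rfl
      rintro _ ⟨w, hw, rfl⟩
      refine ⟨(1 / 2 : ℝ) • w, ?_, ?_⟩
      · exact hK.polar.convex.smul_mem_of_zero_mem hK.polar.zero_mem hw
          ⟨by norm_num, by norm_num⟩
      · simp only
        rw [smul_smul, pow_succ]; congr 1; ring
    exact_mod_cast this
  have hnn : ∀ i, 0 ≤ a i := fun i => psi_nonneg _ _ _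
  have hanti' : ∀ i k, a (i + k) ≤ a i := by
    intro i k
    induction k with
    | zero => exact le_rfl
    | succ k ih => exact (hanti (i + k)).trans ih
  have hsum : ∑ i ∈ Finset.range J,
      (psi K T (2 ^ i / (128 * 1) / 2048) - psi K T (2 ^ i / (128 * 1))) ^ 2 =
      ∑ i ∈ Finset.range J, (a i - a (i + 11)) ^ 2 := by
    apply Finset.sum_congr rfl
    intro i _
    simp only [ha]
    have e1 : (2 : ℝ) ^ i / (128 * 1) / 2048 = 2 ^ i / 2 ^ 18 := by
      rw [div_div]; norm_num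
    have e2 : (2 : ℝ) ^ i / (128 * 1) = 2 ^ (i + 11) / 2 ^ 18 := by
      rw [pow_add]; field_simp; norm_num
    rw [e1, e2]
  rw [hsum] at hml
  have hnn' : ∀ i ∈ Finset.range J, 0 ≤ a i - a (i + 11) := fun i _ => by
    have := hanti' i 11; linarith
  have hsq : ∑ i ∈ Finset.range J, (a i - a (i + 11)) ^ 2 ≤
      (∑ i ∈ Finset.range J, (a i - a (i + 11))) ^ 2 :=
    Finset.sum_sq_le_sq_sum_of_nonneg hnn'
  have htel := telescoping_sum a hnn hanti 11 J
  have hsn : 0 ≤ ∑ i ∈ Finset.range J, (a i - a (i + 11)) := Finset.sum_nonneg hnn'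
  have hsq2 : (∑ i ∈ Finset.range J, (a i - a (i + 11))) ^ 2 ≤ (11 * a 0) ^ 2 :=
    pow_le_pow_left₀ hsn (by exact_mod_cast htel) 2
  have ha0 : a 0 = psi K T (1 / 2 ^ 18) := by simp [ha]
  rw [← ha0]
  have hposc : (0 : ℝ) < coverNum K T := by
    exact_mod_cast (cov_coverNum hmc).pos ⟨0, hK.zero_mem⟩
  have hlog : Real.log (coverNum K T) ≤ Real.log m := by
    apply Real.log_le_log hposc
    exact_mod_cast coverNum_le hmc
  have : (11 * a 0) ^ 2 = 121 * a 0 ^ 2 := by ring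
  nlinarith [sq_nonneg (a 0)]

end Vale.Agent.P126
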