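import Vale.Agent.P126.Cover

open scoped Pointwise RealInnerProductSpace

namespace Vale.Agent.P126

section cover

variable {V : Type*} [NormedAddCommGroup V] [InnerProductSpace ℝ V]

/-- Supermultiplicativity of covering numbers of a symmetric convex set, with a parameter. -/
lemma supermultK {U W : Set V} (hU : Convex ℝ U) (hUs : ∀ x ∈ U, -x ∈ U) (hUn : U.Nonempty)
    (hW : Convex ℝ W) (hWs : ∀ x ∈ W, -x ∈ W) (hWn : W.Nonempty)
    {κ : ℝ} (hκ : 0 < κ) (hκ1 : κ ≤ 1 / 2)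
    {s : ℝ} (hs : 0 < s) {m : ℕ} (hm : Cov U ((κ * s / 2) • W) m) :
    ∃ m₁ m₂ : ℕ, m₁ * m₂ ≤ m ∧ Cov U ((4 * κ) • U + s • W) m₁ ∧ Cov U (s • W) m₂ := by
  classical
  have hU0 : (0 : V) ∈ U := by
    obtain ⟨u, hu⟩ := hUn
    have := hU hu (hUs u hu) (by norm_num : (0:ℝ) ≤ 1/2) (by norm_num : (0:ℝ) ≤ 1/2) (by norm_num)
    simpa using this
  have hW0 : (0 : V) ∈ W := by
    obtain ⟨u, hu⟩ := hWn
    have := hW hu (hWs u hu) (by norm_num : (0:ℝ) ≤ 1/2) (by norm_num : (0:ℝ) ≤ 1/2) (by norm_num)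
    simpa using this
  -- basic scaling facts
  have hsubW : ∀ {p q r : ℝ}, 0 ≤ p → 0 ≤ q → p + q ≤ r →
      ∀ x ∈ p • W, ∀ y ∈ q • W, x - y ∈ r • W := by
    intro p q r hp hq hpqr x hx y hy
    have hy' : -y ∈ q • W := by
      obtain ⟨w, hw, rfl⟩ := hy
      exact ⟨-w, hWs w hw, by simp⟩
    have h1 : x + -y ∈ (p + q) • W := by
      rw [hW.add_smul hp hq]; exact Set.add_mem_add hx hy'
    rw [← sub_eq_add_neg] at h1
    obtain ⟨w, hw, hw'⟩ := h1
    rcases eq_or_lt_of_le (add_nonneg hp hq) with h0 | hpos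
    · rw [← h0] at hw'
      simp only [zero_smul] at hw'
      rw [← hw']
      exact ⟨0, hW0, by simp⟩
    · have hr : 0 < r := lt_of_lt_of_le hpos hpqr
      refine ⟨((p + q) / r) • w, ?_, ?_⟩
      · exact hW.smul_mem_of_zero_mem hW0 hw ⟨by positivity, by rw [div_le_one hr]; exact hpqr⟩
      · rw [← hw']
        simp only
        rw [smul_smul]; congr 1; field_simp
  have hκs : κ * s ≤ s := by nlinarith
  -- separated sets for `s W`
  have hm2 : ∀ O : Finset V, (∀ x ∈ O, x ∈ U) → Sep O (s • W) → O.card ≤ m := by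
    intro O hO hsep
    refine Sep.card_le hm ?_ hsep hO
    exact hsubW (by positivity) (by positivity) (by linarith)
  have h0W : (0 : V) ∈ s • W := ⟨0, hW0, by simp⟩
  have hsW : ∀ x ∈ s • W, -x ∈ s • W := by
    rintro _ ⟨w, hw, rfl⟩
    exact ⟨-w, hWs w hw, by simp⟩
  obtain ⟨O₂, hO₂, hsep₂, hcov₂⟩ := exists_sep_cov h0W hsW hm2
  -- separated sets for `4 κ U + s W`
  have h0UW : (0 : V) ∈ (4 * κ) • U + s • W :=
    ⟨0, ⟨0, hU0, by simp⟩, 0, h0W, by simp⟩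
  have hsUW : ∀ x ∈ (4 * κ) • U + s • W, -x ∈ (4 * κ) • U + s • W := by
    rintro _ ⟨_, ⟨u, hu, rfl⟩, _, ⟨w, hw, rfl⟩, rfl⟩
    exact ⟨_, ⟨-u, hUs u hu, rfl⟩, _, ⟨-w, hWs w hw, rfl⟩, by simp [add_comm]⟩
  have hm1 : ∀ O : Finset V, (∀ x ∈ O, x ∈ U) → Sep O ((4 * κ) • U + s • W) →
      O.card ≤ m := by
    intro O hO hsep
    refine Sep.card_le hm (B := s • W) ?_ ?_ hO
    · exact hsubW (by positivity) (by positivity) (by linarith)
    · intro x hx y hy hxy hmem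
      exact hsep x hx y hy hxy ⟨0, ⟨0, hU0, by simp⟩, _, hmem, by simp⟩
  obtain ⟨O₁, hO₁, hsep₁, hcov₁⟩ := exists_sep_cov h0UW hsUW hm1
  refine ⟨O₁.card, O₂.card, ?_, hcov₁, hcov₂⟩
  -- inject the product
  obtain ⟨t, ht, hc⟩ := hm.exists_mem
  let pt : V × V → V := fun p => (1 - κ) • p.1 + κ • p.2
  have hpt : ∀ p ∈ O₁ ×ˢ O₂, pt p ∈ U := by
    intro p hp
    rw [Finset.mem_product] at hp
    exact hU (hO₁ _ hp.1) (hO₂ _ hp.2) (by linarith) hκ.le (by ring)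
  have hc' : ∀ p : V × V, ∃ x : V, p ∈ O₁ ×ˢ O₂ → x ∈ t ∧ pt p - x ∈ (κ * s / 2) • W := by
    intro p
    by_cases hp : p ∈ O₁ ×ˢ O₂
    · obtain ⟨x, hx, hax⟩ := hc _ (hpt p hp)
      exact ⟨x, fun _ => ⟨hx, hax⟩⟩
    · exact ⟨0, fun h => absurd h hp⟩
  choose f hf using hc'
  rw [← Finset.card_product]
  refine le_trans (Finset.card_le_card_of_injOn f (fun p hp => (hf p hp).1) ?_) ht
  intro p hp p' hp' hff
  have h1 := (hf p hp).2
  have h2 := (hf p' hp').2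
  rw [hff] at h1
  have hdiff : pt p - pt p' ∈ (κ * s) • W := by
    have := hsubW (by positivity : (0:ℝ) ≤ κ * s / 2) (by positivity : (0:ℝ) ≤ κ * s / 2)
      (by linarith : κ * s / 2 + κ * s / 2 ≤ κ * s) _ h1 _ h2
    simpa using this
  have hpm := Finset.mem_product.1 hp
  have hpm' := Finset.mem_product.1 hp'
  have hone : (1 - κ) ≠ 0 := by linarith
  have honep : 0 < 1 - κ := by linarith
  have e1 : p.1 = p'.1 := by
    by_contra hne
    apply hsep₁ _ hpm.1 _ hpm'.1 hne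
    obtain ⟨w, hw, hw'⟩ := hdiff
    have hmid : (1 / 2 : ℝ) • p'.2 + (1 / 2 : ℝ) • (-p.2) ∈ U :=
      hU (hO₂ _ hpm'.2) (hUs _ (hO₂ _ hpm.2)) (by norm_num) (by norm_num) (by norm_num)
    have hkey : p.1 - p'.1 =
        (2 * κ / (1 - κ)) • ((1 / 2 : ℝ) • p'.2 + (1 / 2 : ℝ) • (-p.2))
        + (κ * s / (1 - κ)) • w := by
      have hw2 : (κ * s) • w = ((1 - κ) • p.1 + κ • p.2)
          - ((1 - κ) • p'.1 + κ • p'.2) := hw'
      have hw3 : (κ * s / (1 - κ)) • w = (1 - κ)⁻¹ • ((κ * s) • w) := by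
        rw [smul_smul]; congr 1; field_simp
      have hw4 : (2 * κ / (1 - κ)) • ((1 / 2 : ℝ) • p'.2 + (1 / 2 : ℝ) • (-p.2)) =
          (1 - κ)⁻¹ • (κ • (p'.2 - p.2)) := by
        have : 2 * κ / (1 - κ) = (1 - κ)⁻¹ * (2 * κ) := by field_simp
        rw [this, mul_smul]
        congr 1
        module
      rw [hw3, hw4, hw2, ← smul_add, eq_inv_smul_iff₀ hone]
      module
    rw [hkey]
    refine Set.add_mem_add ?_ ?_
    · refine ⟨(1 / (2 * (1 - κ))) • ((1 / 2 : ℝ) • p'.2 + (1 / 2 : ℝ) • (-p.2)), ?_, ?_⟩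
      · refine hU.smul_mem_of_zero_mem hU0 hmid ⟨by positivity, ?_⟩
        rw [div_le_one (by positivity)]; linarith
      · simp only
        rw [smul_smul]; congr 1; field_simp; norm_num
    · refine ⟨(κ / (1 - κ)) • w, ?_, ?_⟩
      · refine hW.smul_mem_of_zero_mem hW0 hw ⟨by positivity, ?_⟩
        rw [div_le_one honep]; linarith
      · simp only
        rw [smul_smul]; congr 1; ring
  have e2 : p.2 = p'.2 := by
    by_contra hne
    apply hsep₂ _ hpm.2 _ hpm'.2 hne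
    obtain ⟨w, hw, hw'⟩ := hdiff
    refine ⟨w, hw, ?_⟩
    have hw2 : (κ * s) • w = ((1 - κ) • p.1 + κ • p.2) - ((1 - κ) • p'.1 + κ • p'.2) := hw'
    have hw3 : s • w = κ⁻¹ • ((κ * s) • w) := by
      rw [smul_smul]; congr 1; field_simp
    simp only
    rw [hw3, hw2, e1, inv_smul_eq_iff₀ hκ.ne']
    module
  exact Prod.ext e1 e2

end cover

end Vale.Agent.P126
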