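import Vale.Agent.P126.Kernel

open scoped Pointwise RealInnerProductSpace

namespace Vale.Agent.P126

variable {V : Type*} [NormedAddCommGroup V] [InnerProductSpace ℝ V]
variable {Om : Finset V} {U : Set V} {c : V → V} {t : Finset V}

/-- Local estimate with exponent `1 + 1 / k`. -/
lemma local_boundK {k : ℕ} (hk : 1 ≤ k)
    (h : LocalDataE Om U c t (1 / (16 * (k + 1)))) (hU : U.Nonempty) (hOm : Om.Nonempty) :
    Real.log Om.card ≤ 2 ^ 13 * k * (Real.log t.card) ^ (1 + 1 / (k : ℝ)) := by
  classical
  obtain ⟨u, hu⟩ := hU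
  have ht : 1 ≤ t.card := Finset.card_pos.2 ⟨c u, h.maps u hu⟩
  have hOmc : 1 ≤ Om.card := Finset.card_pos.2 hOm
  have hkR : (1 : ℝ) ≤ k := by exact_mod_cast hk
  have hε0 : (0 : ℝ) < 1 / (16 * (k + 1)) := by positivity
  have hε1 : (1 : ℝ) / (16 * (k + 1)) ≤ 1 / 32 := by
    apply one_div_le_one_div_of_le (by norm_num); linarith
  rcases Nat.lt_or_ge t.card 2 with h1 | h2
  · -- one colour
    have ht1 : t.card = 1 := by omega
    have hle : Om.card ≤ 1 := by
      rw [Finset.card_le_one]
      intro x hx y hy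
      by_contra hxy
      obtain ⟨f, hf, hf1⟩ := h.sep x hx y hy hxy
      have hcc : c f = c (-f) := by
        rw [Finset.card_eq_one] at ht1
        obtain ⟨a, ha⟩ := ht1
        have e1 := h.maps f hf
        have e2 := h.maps (-f) (h.symm f hf)
        rw [ha, Finset.mem_singleton] at e1 e2
        rw [e1, e2]
      have k1 := h.close f hf (-f) (h.symm f hf) hcc x hx
      have k2 := h.close f hf (-f) (h.symm f hf) hcc y hy
      rw [inner_neg_left, abs_le] at k1 k2
      linarith [k1.1, k1.2, k2.1, k2.2]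
    have : Om.card = 1 := le_antisymm hle hOmc
    rw [this, ht1]
    simp only [Nat.cast_one, Real.log_one]
    positivity
  · set r := Real.log t.card with hr
    have hR : (2 : ℝ) ≤ t.card := by exact_mod_cast h2
    have hRpos : (0 : ℝ) < t.card := by linarith
    have hl2 : Real.log 2 ≤ r := Real.log_le_log (by norm_num) hR
    have hl2' : (1 : ℝ) / 2 ≤ Real.log 2 := by
      have := Real.log_two_gt_d9; linarith
    have hr2 : 1 / 2 ≤ r := by linarith
    have hr0 : 0 < r := by linarith
    set y : ℝ := (1024 * r) ^ (1 / (k : ℝ)) with hy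
    have hy1 : 1 ≤ y := Real.one_le_rpow (by linarith) (by positivity)
    have hyk : y ^ k = 1024 * r := by
      rw [hy, ← Real.rpow_natCast, ← Real.rpow_mul (by positivity)]
      rw [one_div, inv_mul_cancel₀ (by positivity), Real.rpow_one]
    set n := ⌊y⌋₊ + 1 with hn
    have hny : y < n := by rw [hn]; push_cast; exact Nat.lt_floor_add_one y
    have hny' : (n : ℝ) ≤ y + 1 := by
      rw [hn]; push_cast
      have := Nat.floor_le (by linarith : 0 ≤ y)
      linarith
    have hnk : 1024 * r < (n : ℝ) ^ k := by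
      rw [← hyk]
      exact pow_lt_pow_left₀ hny (by linarith) (by omega)
    have hcard : Om.card < 2 * (2 * (2 * t.card) ^ n) ^ k := by
      by_contra hcon
      push Not at hcon
      have hK := orders h ht ⟨u, hu⟩ (n := n) (by omega) k Om (Finset.Subset.refl _) hcon
      have hg := gain_le h (Finset.Subset.refl _) (by positivity) hK
      have h8 : (1 : ℝ) / 8 ≤ 1 / 4 - 2 * (1 / (16 * (k + 1))) * k - 1 / (16 * (k + 1)) := by
        have : (2 * (1 / (16 * (k + 1))) * k + 1 / (16 * (k + 1)) : ℝ) ≤ 1 / 8 := by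
          have e : (2 * (1 / (16 * (k + 1))) * k + 1 / (16 * (k + 1)) : ℝ) =
              (2 * k + 1) / (16 * (k + 1)) := by field_simp
          rw [e, div_le_div_iff₀ (by positivity) (by norm_num)]
          linarith
        linarith
      have h9 : (n : ℝ) ^ k * (1 / 128) * (1 / 8) ≤ r := by
        refine le_trans ?_ hg
        exact mul_le_mul_of_nonneg_left h8 (by positivity)
      linarith
    have hlog : Real.log Om.card ≤ Real.log 2 + k * (Real.log 2 + n * (Real.log 2 + r)) := by
      have h5 : (Om.card : ℝ) ≤ 2 * (2 * (2 * (t.card : ℝ)) ^ n) ^ k := by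
        exact_mod_cast hcard.le
      have h6 := Real.log_le_log (by exact_mod_cast hOmc) h5
      rw [Real.log_mul (by norm_num) (by positivity), Real.log_pow,
        Real.log_mul (by norm_num) (by positivity), Real.log_pow,
        Real.log_mul (by norm_num) hRpos.ne'] at h6
      exact h6
    have hyr : y ≤ 1024 * r ^ (1 / (k : ℝ)) := by
      rw [hy, Real.mul_rpow (by norm_num) hr0.le]
      apply mul_le_mul_of_nonneg_right _ (Real.rpow_nonneg hr0.le _)
      calc (1024 : ℝ) ^ (1 / (k : ℝ)) ≤ 1024 ^ (1 : ℝ) := by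
            apply Real.rpow_le_rpow_of_exponent_le (by norm_num)
            rw [div_le_one (by positivity)]; exact hkR
        _ = 1024 := Real.rpow_one _
    have hn0 : (0 : ℝ) ≤ n := Nat.cast_nonneg _
    have hy1' : 0 ≤ y - 1 := by linarith
    have hk0 : (0 : ℝ) ≤ k := by linarith
    have hk1 : (0 : ℝ) ≤ k - 1 := by linarith
    have q1 : 0 ≤ r * (y - 1) := mul_nonneg hr0.le hy1'
    have q2 : 0 ≤ r * (y - 1) * k := mul_nonneg q1 hk0
    have q3 : 0 ≤ r * (k - 1) := mul_nonneg hr0.le hk1
    have q4 : 0 ≤ r * k := mul_nonneg hr0.le hk0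
    have hpoly : r + k * (r + (y + 1) * (r + r)) ≤ 6 * k * r * y := by nlinarith
    calc Real.log Om.card ≤ Real.log 2 + k * (Real.log 2 + n * (Real.log 2 + r)) := hlog
      _ ≤ r + k * (r + n * (r + r)) := by gcongr
      _ ≤ r + k * (r + (y + 1) * (r + r)) := by gcongr
      _ ≤ 6 * k * r * y := hpoly
      _ ≤ 6 * k * r * (1024 * r ^ (1 / (k : ℝ))) := by gcongr
      _ ≤ 2 ^ 13 * k * r ^ (1 + 1 / (k : ℝ)) := by
          rw [Real.rpow_add hr0, Real.rpow_one]
          have : 0 ≤ k * (r * r ^ (1 / (k : ℝ))) := by positivity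
          nlinarith

end Vale.Agent.P126
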