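import Vale.Agent.P126.Polar
import Vale.Agent.P126.CoverK
import Vale.Agent.P126.LocalK

open scoped Pointwise RealInnerProductSpace

namespace Vale.Agent.P126

variable {n : ℕ}

/-- The localised bodies are covered by few translates of `T` (order `k`). -/
lemma local_covK {K T : Set (EuclideanSpace ℝ (Fin n))} (hK : IsSymBody K) (hT : IsSymBody T)
    {k : ℕ} (hk : 1 ≤ k) {M : ℝ} (hM : (k : ℝ) + 1 ≤ M)
    {r : ℝ} (hr : 0 < r) {R : ℕ}
    (hR : Cov (polarBody T)
      ((1 / (256 * M)) • polarBody T + (1 / (128 * M * r)) • polarBody K) R) :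
    ∃ m : ℕ, 1 ≤ m ∧ Cov ((2 * r) • K ∩ (4 : ℝ) • T) T m ∧
      Real.log m ≤ 2 ^ 13 * k * (Real.log R) ^ (1 + 1 / (k : ℝ)) := by
  classical
  have hM0 : 0 < M := by
    have : (0 : ℝ) ≤ k := Nat.cast_nonneg _
    linarith
  set A := (2 * r) • K ∩ (4 : ℝ) • T with hA
  obtain ⟨t, ht, hc⟩ := hR.exists_mem
  have hc' : ∀ f : EuclideanSpace ℝ (Fin n), ∃ x, f ∈ polarBody T → x ∈ t ∧
      f - x ∈ (1 / (256 * M)) • polarBody T + (1 / (128 * M * r)) • polarBody K := by
    intro f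
    by_cases hf : f ∈ polarBody T
    · obtain ⟨x, hx, hfx⟩ := hc f hf
      exact ⟨x, fun _ => ⟨hx, hfx⟩⟩
    · exact ⟨0, fun h => absurd h hf⟩
  choose c hc using hc'
  have hbd : ∀ f ∈ polarBody T, ∀ x ∈ A, |⟪f, x⟫| ≤ 4 := by
    rintro f hf x ⟨_, y, hy, rfl⟩
    simp only
    rw [inner_smul_right]
    have h1 := hf y hy
    have h2 := hf (-y) (hT.symm y hy)
    rw [real_inner_comm] at h1 h2
    rw [inner_neg_right] at h2
    rw [abs_le]; constructor <;> linarith
  have hbdW : ∀ f ∈ polarBody K, ∀ x ∈ A, |⟪f, x⟫| ≤ 2 * r := by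
    rintro f hf x ⟨⟨y, hy, rfl⟩, _⟩
    simp only
    rw [inner_smul_right]
    have h1 := hf y hy
    have h2 := hf (-y) (hK.symm y hy)
    rw [real_inner_comm] at h1 h2
    rw [inner_neg_right] at h2
    rw [abs_le]; constructor <;> nlinarith
  have hsmall : ∀ p ∈ (1 / (256 * M)) • polarBody T + (1 / (128 * M * r)) • polarBody K,
      ∀ x ∈ A, |⟪p, x⟫| ≤ 1 / (32 * M) := by
    rintro _ ⟨_, ⟨u, hu, rfl⟩, _, ⟨w, hw, rfl⟩, rfl⟩ x hx
    have h1 := hbd u hu x hx
    have h2 := hbdW w hw x hx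
    simp only
    rw [inner_add_left, inner_smul_left, inner_smul_left]
    simp only [conj_trivial]
    calc |1 / (256 * M) * ⟪u, x⟫ + 1 / (128 * M * r) * ⟪w, x⟫|
        ≤ |1 / (256 * M) * ⟪u, x⟫| + |1 / (128 * M * r) * ⟪w, x⟫| := abs_add_le _ _
      _ = 1 / (256 * M) * |⟪u, x⟫| + 1 / (128 * M * r) * |⟪w, x⟫| := by
          rw [abs_mul, abs_mul, abs_of_pos (show 0 < 1 / (256 * M) by positivity),
            abs_of_pos (show 0 < 1 / (128 * M * r) by positivity)]
      _ ≤ 1 / (256 * M) * 4 + 1 / (128 * M * r) * (2 * r) := by gcongr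
      _ = 1 / (32 * M) := by field_simp; norm_num
  have hclose : 1 / (32 * M) + 1 / (32 * M) ≤ 1 / (16 * ((k : ℝ) + 1)) := by
    have h1 : 1 / (32 * M) + 1 / (32 * M) = 1 / (16 * M) := by field_simp; norm_num
    rw [h1]
    apply one_div_le_one_div_of_le (by positivity)
    linarith
  have hLD : ∀ O : Finset (EuclideanSpace ℝ (Fin n)), (∀ x ∈ O, x ∈ A) → Sep O T →
      LocalDataE O (polarBody T) c t (1 / (16 * ((k : ℝ) + 1))) := by
    intro O hO hsep
    refine ⟨convex_polarBody T, neg_mem_polarBody hT.symm, fun f hf x hx => hbd f hf x (hO x hx),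
      ?_, fun f hf => (hc f hf).1, ?_⟩
    · intro x hx y hy hxy
      obtain ⟨f, hf, hf1⟩ := exists_polar_gt hT.convex hT.compact.isClosed hT.zero_mem
        (hsep x hx y hy hxy)
      refine ⟨f, hf, ?_⟩
      rwa [inner_sub_right] at hf1
    · intro f hf g hg hfg x hx
      have h1 := hsmall _ (hc f hf).2 x (hO x hx)
      have h2 := hsmall _ (hc g hg).2 x (hO x hx)
      rw [inner_sub_left] at h1 h2
      rw [← hfg] at h2
      refine le_trans ?_ hclose
      rw [abs_le] at h1 h2 ⊢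
      constructor <;> linarith [h1.1, h1.2, h2.1, h2.2]
  have hUne : (polarBody T).Nonempty := ⟨0, zero_mem_polarBody T⟩
  have htpos : 1 ≤ t.card := Finset.card_pos.2 ⟨c 0, (hc 0 (zero_mem_polarBody T)).1⟩
  have hlogt : Real.log t.card ≤ Real.log R :=
    Real.log_le_log (by exact_mod_cast htpos) (by exact_mod_cast ht)
  have hlogt0 : 0 ≤ Real.log t.card := Real.log_natCast_nonneg _
  have hexp0 : 0 ≤ 1 + 1 / (k : ℝ) := by positivity
  have hRlog : 0 ≤ Real.log R := Real.log_natCast_nonneg _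
  have hlogb : ∀ O : Finset (EuclideanSpace ℝ (Fin n)), (∀ x ∈ O, x ∈ A) → Sep O T →
      Real.log O.card ≤ 2 ^ 13 * k * (Real.log R) ^ (1 + 1 / (k : ℝ)) := by
    intro O hO hsep
    rcases O.eq_empty_or_nonempty with rfl | hne
    · simp only [Finset.card_empty, Nat.cast_zero, Real.log_zero]
      positivity
    · refine (local_boundK hk (hLD O hO hsep) hUne hne).trans ?_
      have : Real.log t.card ^ (1 + 1 / (k : ℝ)) ≤ Real.log R ^ (1 + 1 / (k : ℝ)) :=
        Real.rpow_le_rpow hlogt0 hlogt hexp0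
      gcongr
  have hbound : ∀ O : Finset (EuclideanSpace ℝ (Fin n)), (∀ x ∈ O, x ∈ A) → Sep O T →
      O.card ≤ ⌊Real.exp (2 ^ 13 * k * (Real.log R) ^ (1 + 1 / (k : ℝ)))⌋₊ := by
    intro O hO hsep
    rcases O.eq_empty_or_nonempty with rfl | hne
    · simp
    · apply Nat.le_floor
      have hpos : (0 : ℝ) < O.card := by exact_mod_cast Finset.card_pos.2 hne
      rw [← Real.log_le_iff_le_exp hpos]
      exact hlogb O hO hsep
  obtain ⟨O, hO, hsep, hcov⟩ := exists_sep_cov hT.zero_mem hT.symm hbound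
  refine ⟨O.card, ?_, hcov, hlogb O hO hsep⟩
  apply hcov.pos
  exact ⟨0, ⟨0, hK.zero_mem, by simp⟩, ⟨0, hT.zero_mem, by simp⟩⟩

end Vale.Agent.P126
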