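import Vale.Agent.P126.Assembly
import Vale.Agent.P126.PolarK

open scoped Pointwise RealInnerProductSpace

namespace Vale.Agent.P126

variable {n : ℕ}

/-- One scale estimate with dual entropy differences (order `k`). -/
lemma scale_boundK {K T : Set (EuclideanSpace ℝ (Fin n))} (hK : IsSymBody K) (hT : IsSymBody T)
    {k j : ℕ} (hk : 1 ≤ k) (hj : k + 1 ≤ 2 ^ j) {s : ℝ} (hs : 0 < s) :
    ∃ m : ℕ, 1 ≤ m ∧ Cov ((2 * (1 / (128 * 2 ^ j * s))) • K ∩ (4 : ℝ) • T) T m ∧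
      Real.log m ≤ 2 ^ 13 * k *
        (psi K T (s / 2 ^ (11 + j)) - psi K T s) ^ (1 + 1 / (k : ℝ)) ∧
      0 ≤ psi K T (s / 2 ^ (11 + j)) - psi K T s := by
  have hkM : (k : ℝ) + 1 ≤ 2 ^ j := by exact_mod_cast hj
  have hMpos : (0 : ℝ) < 2 ^ j := by positivity
  have hM1 : (1 : ℝ) ≤ 2 ^ j := by
    have : (0 : ℝ) ≤ k := Nat.cast_nonneg _
    linarith
  obtain ⟨m0, hm0⟩ := exists_cov_polar hK hT (show 0 < s / 2 ^ (11 + j) by positivity)
  have hκ : (0 : ℝ) < 1 / (1024 * 2 ^ j) := by positivity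
  have hκ1 : (1 : ℝ) / (1024 * 2 ^ j) ≤ 1 / 2 := by
    apply one_div_le_one_div_of_le (by norm_num); linarith
  have hsc : 1 / (1024 * 2 ^ j) * s / 2 = s / 2 ^ (11 + j) := by
    rw [pow_add]; field_simp; norm_num
  obtain ⟨m₁, m₂, hmul, hc1, hc2⟩ := supermultK hT.polar.convex hT.polar.symm
    ⟨0, zero_mem_polarBody T⟩ hK.polar.convex hK.polar.symm ⟨0, zero_mem_polarBody K⟩ hκ hκ1 hs
    (by rw [hsc]; exact cov_coverNum hm0)
  have hs' : s = 1 / (128 * 2 ^ j * (1 / (128 * 2 ^ j * s))) := by field_simp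
  have hκ4 : 4 * (1 / (1024 * 2 ^ j)) = (1 : ℝ) / (256 * 2 ^ j) := by field_simp; norm_num
  rw [hκ4] at hc1
  obtain ⟨m, hm1, hmc, hml⟩ := local_covK hK hT hk hkM (r := 1 / (128 * 2 ^ j * s))
    (by positivity) (R := m₁) (by rw [← hs']; exact hc1)
  have hne : (polarBody T).Nonempty := ⟨0, zero_mem_polarBody T⟩
  have hp1 : 1 ≤ m₁ := hc1.pos hne
  have hp2 : 1 ≤ m₂ := hc2.pos hne
  have hpN : 1 ≤ coverNum (polarBody T) (s • polarBody K) := coverNum_pos hK hT hs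
  have hle2 : coverNum (polarBody T) (s • polarBody K) ≤ m₂ := coverNum_le hc2
  have hlog : Real.log m₁ + psi K T s ≤ psi K T (s / 2 ^ (11 + j)) := by
    unfold psi
    have hm1' : (0 : ℝ) < m₁ := by exact_mod_cast hp1
    have hpN' : (0 : ℝ) < coverNum (polarBody T) (s • polarBody K) := by exact_mod_cast hpN
    rw [← Real.log_mul hm1'.ne' hpN'.ne']
    apply Real.log_le_log (by positivity)
    have : m₁ * coverNum (polarBody T) (s • polarBody K) ≤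
        coverNum (polarBody T) ((s / 2 ^ (11 + j)) • polarBody K) :=
      (Nat.mul_le_mul_left _ hle2).trans hmul
    exact_mod_cast this
  have h0 : 0 ≤ Real.log m₁ := Real.log_natCast_nonneg _
  refine ⟨m, hm1, hmc, hml.trans ?_, by linarith⟩
  have : Real.log m₁ ^ (1 + 1 / (k : ℝ)) ≤
      (psi K T (s / 2 ^ (11 + j)) - psi K T s) ^ (1 + 1 / (k : ℝ)) :=
    Real.rpow_le_rpow h0 (by linarith) (by positivity)
  gcongr

/-- Iterating over dyadic scales (order `k`). -/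
lemma iterate_covK {K T : Set (EuclideanSpace ℝ (Fin n))} (hK : IsSymBody K) (hT : IsSymBody T)
    {k j : ℕ} (hk : 1 ≤ k) (hj : k + 1 ≤ 2 ^ j)
    (J : ℕ) : ∀ r : ℝ, 0 < r → (r / 2 ^ J) • K ⊆ T →
      ∃ m : ℕ, 1 ≤ m ∧ Cov (r • K) T m ∧
        Real.log m ≤ 2 ^ 13 * k * ∑ i ∈ Finset.range J,
          (psi K T (2 ^ i / (128 * 2 ^ j * r) / 2 ^ (11 + j)) -
            psi K T (2 ^ i / (128 * 2 ^ j * r))) ^ (1 + 1 / (k : ℝ)) := by
  induction J with
  | zero =>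
    intro r hr hsub
    refine ⟨1, le_rfl, Cov.of_forall {0} (by simp) ?_, by simp⟩
    intro a ha
    refine ⟨0, by simp, ?_⟩
    have := hsub (a := a) (by simpa using ha)
    simpa using this
  | succ J ih =>
    intro r hr hsub
    obtain ⟨m, hm1, hmc, hml⟩ := ih (r / 2) (by positivity) (by
      have : r / 2 / 2 ^ J = r / 2 ^ (J + 1) := by rw [pow_succ]; field_simp
      rwa [this])
    obtain ⟨q, hq1, hqc, hql, _⟩ := scale_boundK hK hT hk hj (s := 1 / (128 * 2 ^ j * r))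
      (by positivity)
    have hrr : 1 / (128 * 2 ^ j * (1 / (128 * 2 ^ j * r))) = r := by field_simp
    rw [hrr] at hqc
    refine ⟨m * q, Nat.mul_pos hm1 hq1, step_cov hK hT hmc hqc, ?_⟩
    have hm' : (m : ℝ) ≠ 0 := by positivity
    have hq' : (q : ℝ) ≠ 0 := by positivity
    rw [Nat.cast_mul, Real.log_mul hm' hq', Finset.sum_range_succ']
    have hre : ∀ i : ℕ, (2 : ℝ) ^ i / (128 * 2 ^ j * (r / 2)) = 2 ^ (i + 1) / (128 * 2 ^ j * r) := by
      intro i; rw [pow_succ]; field_simp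
    simp only [hre] at hml
    simp only [pow_zero]
    linarith

lemma sum_rpow_le {J : ℕ} {x : ℕ → ℝ} (hx : ∀ i ∈ Finset.range J, 0 ≤ x i) {q : ℝ} (hq : 0 ≤ q) :
    ∑ i ∈ Finset.range J, x i ^ (1 + q) ≤ (∑ i ∈ Finset.range J, x i) ^ (1 + q) := by
  have hS : 0 ≤ ∑ i ∈ Finset.range J, x i := Finset.sum_nonneg hx
  rw [Real.rpow_add_of_nonneg hS zero_le_one hq, Real.rpow_one, Finset.sum_mul]
  apply Finset.sum_le_sum
  intro i hi
  rw [Real.rpow_add_of_nonneg (hx i hi) zero_le_one hq, Real.rpow_one]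
  apply mul_le_mul_of_nonneg_left _ (hx i hi)
  exact Real.rpow_le_rpow (hx i hi) (Finset.single_le_sum hx hi) hq

/-- `log N(K, T) ≤ 2 ^ 13 k (11 + j)² (log N(T°, 2^{-(18 + 2 j)} K°))^{1 + 1 / k}`. -/
theorem main_halfK {K T : Set (EuclideanSpace ℝ (Fin n))} (hK : IsSymBody K) (hT : IsSymBody T)
    {k j : ℕ} (hk : 1 ≤ k) (hj : k + 1 ≤ 2 ^ j) :
    Real.log (coverNum K T) ≤
      2 ^ 13 * k * (11 + j) ^ 2 * (psi K T (1 / 2 ^ (18 + 2 * j))) ^ (1 + 1 / (k : ℝ)) := by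
  -- large `J`
  obtain ⟨J, hJ⟩ : ∃ J : ℕ, ((1 : ℝ) / 2 ^ J) • K ⊆ T := by
    obtain ⟨R, hR⟩ := isBounded_iff_forall_norm_le.1 hK.compact.isBounded
    obtain ⟨ε, hε, hball⟩ :=
      Metric.mem_nhds_iff.1 (mem_interior_iff_mem_nhds.1 hT.zero_mem_interior)
    have hR0 : 0 ≤ R := le_trans (norm_nonneg _) (hR 0 hK.zero_mem)
    obtain ⟨J, hJ⟩ := pow_unbounded_of_one_lt ((R + 1) / ε) (one_lt_two : (1 : ℝ) < 2)
    refine ⟨J, ?_⟩
    rintro _ ⟨x, hx, rfl⟩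
    apply hball
    rw [Metric.mem_ball, dist_zero_right]
    simp only
    rw [norm_smul, Real.norm_of_nonneg (by positivity), one_div, inv_mul_lt_iff₀ (by positivity)]
    rw [div_lt_iff₀ hε] at hJ
    have := hR x hx
    linarith
  obtain ⟨m, hm1, hmc, hml⟩ := iterate_covK hK hT hk hj J 1 one_pos hJ
  rw [one_smul] at hmc
  have hkR : (1 : ℝ) ≤ k := by exact_mod_cast hk
  -- the sequence of dual entropies
  set a : ℕ → ℝ := fun i => psi K T (2 ^ i / 2 ^ (18 + 2 * j)) with ha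
  have hanti : ∀ i, a (i + 1) ≤ a i := by
    intro i
    simp only [ha, psi]
    have hs : (0 : ℝ) < 2 ^ (i + 1) / 2 ^ (18 + 2 * j) := by positivity
    have hs' : (0 : ℝ) < 2 ^ i / 2 ^ (18 + 2 * j) := by positivity
    have hpos := coverNum_pos hK hT hs
    obtain ⟨m', hm'⟩ := exists_cov_polar hK hT hs'
    apply Real.log_le_log (by exact_mod_cast hpos)
    have : coverNum (polarBody T) (((2 : ℝ) ^ (i + 1) / 2 ^ (18 + 2 * j)) • polarBody K) ≤
        coverNum (polarBody T) (((2 : ℝ) ^ i / 2 ^ (18 + 2 * j)) • polarBody K) := by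
      apply coverNum_le
      refine (cov_coverNum hm').mono (Set.Subset.refl _) ?_ le_rfl
      rintro _ ⟨w, hw, rfl⟩
      refine ⟨(1 / 2 : ℝ) • w, ?_, ?_⟩
      · exact hK.polar.convex.smul_mem_of_zero_mem hK.polar.zero_mem hw
          ⟨by norm_num, by norm_num⟩
      · simp only
        rw [smul_smul, pow_succ]; congr 1; ring
    exact_mod_cast this
  have hnn : ∀ i, 0 ≤ a i := fun i => psi_nonneg _ _ _
  have hanti' : ∀ i k, a (i + k) ≤ a i := by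
    intro i k
    induction k with
    | zero => exact le_rfl
    | succ k ih => exact (hanti (i + k)).trans ih
  have hsum : ∑ i ∈ Finset.range J,
      (psi K T (2 ^ i / (128 * 2 ^ j * 1) / 2 ^ (11 + j)) -
        psi K T (2 ^ i / (128 * 2 ^ j * 1))) ^ (1 + 1 / (k : ℝ)) =
      ∑ i ∈ Finset.range J, (a i - a (i + (11 + j))) ^ (1 + 1 / (k : ℝ)) := by
    apply Finset.sum_congr rfl
    intro i _
    simp only [ha]
    have e0 : (2 : ℝ) ^ (18 + 2 * j) = 128 * 2 ^ j * 2 ^ (11 + j) := by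
      rw [show 18 + 2 * j = 7 + (j + (11 + j)) by ring, pow_add, pow_add]; norm_num; ring
    have e1 : (2 : ℝ) ^ i / (128 * 2 ^ j * 1) / 2 ^ (11 + j) = 2 ^ i / 2 ^ (18 + 2 * j) := by
      rw [div_div, mul_one, e0]
    have e2 : (2 : ℝ) ^ i / (128 * 2 ^ j * 1) = 2 ^ (i + (11 + j)) / 2 ^ (18 + 2 * j) := by
      rw [e0, mul_one, pow_add]; field_simp
    rw [e1, e2]
  rw [hsum] at hml
  have hnn' : ∀ i ∈ Finset.range J, 0 ≤ a i - a (i + (11 + j)) := fun i _ => by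
    have := hanti' i (11 + j); linarith
  have hq0 : (0 : ℝ) ≤ 1 / (k : ℝ) := by positivity
  have hsq : ∑ i ∈ Finset.range J, (a i - a (i + (11 + j))) ^ (1 + 1 / (k : ℝ)) ≤
      (∑ i ∈ Finset.range J, (a i - a (i + (11 + j)))) ^ (1 + 1 / (k : ℝ)) :=
    sum_rpow_le hnn' hq0
  have htel := telescoping_sum a hnn hanti (11 + j) J
  have hsn : 0 ≤ ∑ i ∈ Finset.range J, (a i - a (i + (11 + j))) := Finset.sum_nonneg hnn'
  have hN0 : (0 : ℝ) ≤ ((11 + j : ℕ) : ℝ) := Nat.cast_nonneg _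
  have hN1 : (1 : ℝ) ≤ ((11 + j : ℕ) : ℝ) := by
    have : (0 : ℝ) ≤ j := Nat.cast_nonneg _
    push_cast; linarith
  have hsq2 : (∑ i ∈ Finset.range J, (a i - a (i + (11 + j)))) ^ (1 + 1 / (k : ℝ)) ≤
      (((11 + j : ℕ) : ℝ) * a 0) ^ (1 + 1 / (k : ℝ)) :=
    Real.rpow_le_rpow hsn htel (by positivity)
  have hmul : (((11 + j : ℕ) : ℝ) * a 0) ^ (1 + 1 / (k : ℝ)) ≤
      (11 + j) ^ 2 * a 0 ^ (1 + 1 / (k : ℝ)) := by
    rw [Real.mul_rpow hN0 (hnn 0)]
    apply mul_le_mul_of_nonneg_right _ (Real.rpow_nonneg (hnn 0) _)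
    calc ((11 + j : ℕ) : ℝ) ^ (1 + 1 / (k : ℝ)) ≤ ((11 + j : ℕ) : ℝ) ^ (2 : ℝ) := by
          apply Real.rpow_le_rpow_of_exponent_le hN1
          have : 1 / (k : ℝ) ≤ 1 := by rw [div_le_one (by linarith)]; exact hkR
          linarith
      _ = (11 + j) ^ 2 := by rw [Real.rpow_two]; push_cast; ring
  have ha0 : a 0 = psi K T (1 / 2 ^ (18 + 2 * j)) := by simp [ha]
  rw [← ha0]
  have hposc : (0 : ℝ) < coverNum K T := by
    exact_mod_cast (cov_coverNum hmc).pos ⟨0, hK.zero_mem⟩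
  have hlog : Real.log (coverNum K T) ≤ Real.log m := by
    apply Real.log_le_log hposc
    exact_mod_cast coverNum_le hmc
  calc Real.log (coverNum K T) ≤ Real.log m := hlog
    _ ≤ 2 ^ 13 * k * ∑ i ∈ Finset.range J, (a i - a (i + (11 + j))) ^ (1 + 1 / (k : ℝ)) := hml
    _ ≤ 2 ^ 13 * k * ((11 + j) ^ 2 * a 0 ^ (1 + 1 / (k : ℝ))) := by
        apply mul_le_mul_of_nonneg_left _ (by positivity)
        exact hsq.trans (hsq2.trans hmul)
    _ = 2 ^ 13 * k * (11 + j) ^ 2 * a 0 ^ (1 + 1 / (k : ℝ)) := by ring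

end Vale.Agent.P126
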