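import Mathlib

namespace Vale.Agent.P126.Dis

open Finset

variable {P : Type*} [Fintype P] [DecidableEq P]

/-- The number of words that agree with `z` on `A`. -/
theorem card_agree_on {Q : ℕ} (A : Finset P) (z : P → Fin Q) :
    (univ.filter fun w : P → Fin Q => ∀ m ∈ A, w m = z m).card = Q ^ (Aᶜ.card) := by
  have e : (univ.filter fun w : P → Fin Q => ∀ m ∈ A, w m = z m) =
      Fintype.piFinset fun m => if m ∈ A then {z m} else univ := by
    ext w
    simp only [mem_filter, mem_univ, true_and, Fintype.mem_piFinset]
    refine forall_congr' fun m => ?_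
    by_cases hm : m ∈ A <;> simp [hm]
  rw [e, Fintype.card_piFinset, ← Finset.prod_compl_mul_prod A]
  have e1 : ∏ m ∈ Aᶜ, (if m ∈ A then {z m} else (univ : Finset (Fin Q))).card = Q ^ (Aᶜ.card) := by
    rw [← Finset.prod_const]
    refine prod_congr rfl fun m hm => ?_
    rw [mem_compl] at hm
    simp [hm]
  have e2 : ∏ m ∈ A, (if m ∈ A then {z m} else (univ : Finset (Fin Q))).card = 1 := by
    refine prod_eq_one fun m hm => ?_
    simp [hm]
  rw [e1, e2, mul_one]

/-- The Gilbert-Varshamov code. -/
theorem exists_code (Q : ℕ) (hQ : 1 ≤ Q) :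
    ∃ Z : Finset (P → Fin Q),
      (∀ z ∈ Z, ∀ z' ∈ Z, z ≠ z' →
        2 * (univ.filter fun m => z m = z' m).card ≤ Fintype.card P) ∧
      Q ^ Fintype.card P ≤ Z.card * (2 ^ Fintype.card P * Q ^ (Fintype.card P / 2)) := by
  classical
  let sep : Finset (P → Fin Q) → Prop := fun Z => ∀ z ∈ Z, ∀ z' ∈ Z, z ≠ z' →
    2 * (univ.filter fun m => z m = z' m).card ≤ Fintype.card P
  obtain ⟨Z, hZ, hmax⟩ := Finset.exists_max_image
    ((univ : Finset (Finset (P → Fin Q))).filter sep) Finset.card ⟨∅, by simp [sep]⟩
  rw [mem_filter] at hZ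
  refine ⟨Z, hZ.2, ?_⟩
  have hcov : (univ : Finset (P → Fin Q)) ⊆ Z.biUnion fun z =>
      (univ.filter fun A : Finset P => Fintype.card P ≤ 2 * A.card).biUnion fun A =>
        univ.filter fun w : P → Fin Q => ∀ m ∈ A, w m = z m := by
    intro w _
    rw [mem_biUnion]
    by_cases hw : w ∈ Z
    · refine ⟨w, hw, ?_⟩
      rw [mem_biUnion]
      refine ⟨univ, ?_, ?_⟩
      · rw [mem_filter, card_univ]
        exact ⟨mem_univ _, by omega⟩
      · simp
    · by_contra hcon
      push Not at hcon
      have hall : ∀ z ∈ Z, 2 * (univ.filter fun m => w m = z m).card ≤ Fintype.card P := by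
        intro z hz
        by_contra h
        push Not at h
        apply hcon z hz
        rw [mem_biUnion]
        refine ⟨univ.filter fun m => w m = z m, ?_, ?_⟩
        · rw [mem_filter]
          exact ⟨mem_univ _, h.le⟩
        · rw [mem_filter]
          refine ⟨mem_univ _, fun m hm => ?_⟩
          rw [mem_filter] at hm
          exact hm.2
      have hsep : sep (insert w Z) := by
        intro z hz z' hz' hne
        rw [mem_insert] at hz hz'
        rcases hz with rfl | hz <;> rcases hz' with rfl | hz'
        · exact absurd rfl hne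
        · exact hall z' hz'
        · have := hall z hz
          have e : (univ.filter fun m => z m = z' m) = univ.filter fun m => z' m = z m := by
            ext m
            simp [eq_comm]
          rw [e]
          exact this
        · exact hZ.2 z hz z' hz' hne
      have := hmax (insert w Z) (by rw [mem_filter]; exact ⟨mem_univ _, hsep⟩)
      rw [card_insert_of_notMem hw] at this
      omega
  have h1 := card_le_card hcov
  rw [card_univ, Fintype.card_fun, Fintype.card_fin] at h1
  refine h1.trans ?_
  refine card_biUnion_le_card_mul _ _ _ fun z _ => ?_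
  have h2 : ((univ.filter fun A : Finset P => Fintype.card P ≤ 2 * A.card).biUnion fun A =>
        univ.filter fun w : P → Fin Q => ∀ m ∈ A, w m = z m).card ≤
      (univ.filter fun A : Finset P => Fintype.card P ≤ 2 * A.card).card *
        Q ^ (Fintype.card P / 2) := by
    refine card_biUnion_le_card_mul _ _ _ fun A hA => ?_
    rw [mem_filter] at hA
    rw [card_agree_on]
    refine Nat.pow_le_pow_right hQ ?_
    rw [card_compl]
    omega
  refine h2.trans (Nat.mul_le_mul_right _ ?_)
  refine (card_le_univ _).trans ?_
  rw [Fintype.card_finset]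

end Vale.Agent.P126.Dis
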