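import Mathlib

open scoped Pointwise RealInnerProductSpace

namespace Vale.Agent.P126

section cover

variable {V : Type*} [NormedAddCommGroup V] [InnerProductSpace ℝ V]

/-- `A` can be covered by at most `m` translates of `B`. -/
def Cov (A B : Set V) (m : ℕ) : Prop :=
  ∃ t : Finset V, t.card ≤ m ∧ A ⊆ ⋃ x ∈ t, (x +ᵥ B)

omit [InnerProductSpace ℝ V] in
lemma mem_vadd_iff (x a : V) (B : Set V) : a ∈ x +ᵥ B ↔ a - x ∈ B := by
  rw [Set.mem_vadd_set_iff_neg_vadd_mem, vadd_eq_add, neg_add_eq_sub]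

omit [InnerProductSpace ℝ V] in
lemma Cov.mono {A A' B B' : Set V} {m m' : ℕ} (h : Cov A B m) (hA : A' ⊆ A) (hB : B ⊆ B')
    (hm : m ≤ m') : Cov A' B' m' := by
  obtain ⟨t, ht, hc⟩ := h
  refine ⟨t, ht.trans hm, hA.trans (hc.trans ?_)⟩
  exact Set.iUnion₂_mono (fun x _ => Set.vadd_set_mono hB)

lemma Cov.exists_mem {A B : Set V} {m : ℕ} (h : Cov A B m) :
    ∃ t : Finset V, t.card ≤ m ∧ ∀ a ∈ A, ∃ x ∈ t, a - x ∈ B := by
  obtain ⟨t, ht, hc⟩ := h
  refine ⟨t, ht, fun a ha => ?_⟩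
  have := hc ha
  simp only [Set.mem_iUnion] at this
  obtain ⟨x, hx, hax⟩ := this
  exact ⟨x, hx, (mem_vadd_iff _ _ _).1 hax⟩

lemma Cov.of_forall {A B : Set V} {m : ℕ} (t : Finset V) (ht : t.card ≤ m)
    (h : ∀ a ∈ A, ∃ x ∈ t, a - x ∈ B) : Cov A B m := by
  refine ⟨t, ht, fun a ha => ?_⟩
  obtain ⟨x, hx, hax⟩ := h a ha
  simp only [Set.mem_iUnion]
  exact ⟨x, hx, (mem_vadd_iff _ _ _).2 hax⟩

/-- Chain two coverings. -/
lemma Cov.mul {A B C : Set V} {m k : ℕ} (h : Cov A B m)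
    (h' : ∀ x : V, Cov (A ∩ (x +ᵥ B)) C k) : Cov A C (m * k) := by
  classical
  obtain ⟨t, ht, hc⟩ := h.exists_mem
  choose s hs hs' using fun x => (h' x).exists_mem
  refine Cov.of_forall (t.biUnion s) ?_ ?_
  · calc (t.biUnion s).card ≤ ∑ x ∈ t, (s x).card := Finset.card_biUnion_le
      _ ≤ ∑ x ∈ t, k := Finset.sum_le_sum (fun x _ => hs x)
      _ = t.card * k := by rw [Finset.sum_const, smul_eq_mul]
      _ ≤ m * k := Nat.mul_le_mul_right _ ht
  · intro a ha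
    obtain ⟨x, hx, hax⟩ := hc a ha
    obtain ⟨y, hy, hay⟩ := hs' x a ⟨ha, (mem_vadd_iff _ _ _).2 hax⟩
    exact ⟨y, Finset.mem_biUnion.2 ⟨x, hx, hy⟩, hay⟩

/-- `O` is separated with respect to `B`. -/
def Sep (O : Finset V) (B : Set V) : Prop := ∀ x ∈ O, ∀ y ∈ O, x ≠ y → x - y ∉ B

/-- Translates of a small set contain at most one point of a separated set. -/
lemma Sep.card_le {A B B' : Set V} {m : ℕ} (h : Cov A B' m)
    (hB : ∀ x ∈ B', ∀ y ∈ B', x - y ∈ B) {O : Finset V} (hO : Sep O B) (hOA : ∀ x ∈ O, x ∈ A) :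
    O.card ≤ m := by
  classical
  obtain ⟨t, ht, hc⟩ := h.exists_mem
  have hc' : ∀ a : V, ∃ x : V, a ∈ O → x ∈ t ∧ a - x ∈ B' := by
    intro a
    by_cases ha : a ∈ O
    · obtain ⟨x, hx, hax⟩ := hc a (hOA a ha)
      exact ⟨x, fun _ => ⟨hx, hax⟩⟩
    · exact ⟨0, fun h => absurd h ha⟩
  choose f hf using hc'
  refine le_trans (Finset.card_le_card_of_injOn f (fun a ha => (hf a ha).1) ?_) ht
  intro a ha b hb hab
  by_contra hne
  have h1 := (hf a ha).2
  have h2 := (hf b hb).2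
  apply hO a ha b hb hne
  have := hB _ h1 _ h2
  rw [hab] at this
  simpa using this

/-- If separated subsets have bounded cardinality, there is a covering by a maximal one. -/
lemma exists_sep_cov {A B : Set V} {m : ℕ} (h0 : (0 : V) ∈ B) (hsymm : ∀ x ∈ B, -x ∈ B)
    (hm : ∀ O : Finset V, (∀ x ∈ O, x ∈ A) → Sep O B → O.card ≤ m) :
    ∃ O : Finset V, (∀ x ∈ O, x ∈ A) ∧ Sep O B ∧ Cov A B O.card := by
  classical
  let P : ℕ → Prop := fun k => ∃ O : Finset V, (∀ x ∈ O, x ∈ A) ∧ Sep O B ∧ O.card = k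
  have hP0 : P 0 := ⟨∅, by simp, by intro x hx; simp at hx, rfl⟩
  have hspec : P (Nat.findGreatest P m) := Nat.findGreatest_spec (Nat.zero_le m) hP0
  obtain ⟨O, hOA, hsep, hcard⟩ := hspec
  refine ⟨O, hOA, hsep, Cov.of_forall O le_rfl ?_⟩
  intro a ha
  by_contra hcon
  push Not at hcon
  have haO : a ∉ O := fun h => hcon a h (by simpa using h0)
  have hsep' : Sep (insert a O) B := by
    intro x hx y hy hxy
    rw [Finset.mem_insert] at hx hy
    rcases hx with rfl | hx <;> rcases hy with rfl | hy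
    · exact absurd rfl hxy
    · exact hcon y hy
    · intro hmem
      apply hcon x hx
      have := hsymm _ hmem
      simpa using this
    · exact hsep x hx y hy hxy
  have hA' : ∀ x ∈ insert a O, x ∈ A := by
    intro x hx
    rcases Finset.mem_insert.1 hx with rfl | hx
    · exact ha
    · exact hOA x hx
  have hle := hm _ hA' hsep'
  have hPk : P (O.card + 1) := ⟨insert a O, hA', hsep', Finset.card_insert_of_notMem haO⟩
  rw [Finset.card_insert_of_notMem haO] at hle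
  have h5 : O.card + 1 ≤ Nat.findGreatest P m := Nat.le_findGreatest hle hPk
  omega

/-- Compact sets have finite covers by translates of sets with interior. -/
lemma exists_cov {A B : Set V} (hA : IsCompact A) (hB : (interior B).Nonempty) :
    ∃ m, Cov A B m := by
  classical
  obtain ⟨b, hb⟩ := hB
  obtain ⟨t, ht⟩ := hA.elim_finite_subcover (fun x : V => (x +ᵥ interior B))
    (fun x => isOpen_interior.vadd x) (by
      intro a _
      rw [Set.mem_iUnion]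
      exact ⟨a - b, (mem_vadd_iff _ _ _).2 (by simpa using hb)⟩)
  refine ⟨t.card, t, le_rfl, ht.trans ?_⟩
  exact Set.iUnion₂_mono (fun x _ => Set.vadd_set_mono interior_subset)

/-- Supermultiplicativity of covering numbers of a symmetric convex set. -/
lemma supermult {U W : Set V} (hU : Convex ℝ U) (hUs : ∀ x ∈ U, -x ∈ U) (hUn : U.Nonempty)
    (hW : Convex ℝ W) (hWs : ∀ x ∈ W, -x ∈ W) (hWn : W.Nonempty)
    {s : ℝ} (hs : 0 < s) {m : ℕ} (hm : Cov U ((s / 2048) • W) m) :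
    ∃ m₁ m₂ : ℕ, m₁ * m₂ ≤ m ∧ Cov U ((1 / 256 : ℝ) • U + s • W) m₁ ∧ Cov U (s • W) m₂ := by
  classical
  have hU0 : (0 : V) ∈ U := by
    obtain ⟨u, hu⟩ := hUn
    have := hU hu (hUs u hu) (by norm_num : (0:ℝ) ≤ 1/2) (by norm_num : (0:ℝ) ≤ 1/2) (by norm_num)
    simpa using this
  have hW0 : (0 : V) ∈ W := by
    obtain ⟨u, hu⟩ := hWn
    have := hW hu (hWs u hu) (by norm_num : (0:ℝ) ≤ 1/2) (by norm_num : (0:ℝ) ≤ 1/2) (by norm_num)
    simpa using this
  -- basic scaling facts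
  have hsubW : ∀ {p q r : ℝ}, 0 ≤ p → 0 ≤ q → p + q ≤ r →
      ∀ x ∈ p • W, ∀ y ∈ q • W, x - y ∈ r • W := by
    intro p q r hp hq hpqr x hx y hy
    have hy' : -y ∈ q • W := by
      obtain ⟨w, hw, rfl⟩ := hy
      exact ⟨-w, hWs w hw, by simp⟩
    have h1 : x + -y ∈ (p + q) • W := by
      rw [hW.add_smul hp hq]; exact Set.add_mem_add hx hy'
    rw [← sub_eq_add_neg] at h1
    obtain ⟨w, hw, hw'⟩ := h1
    rcases eq_or_lt_of_le (add_nonneg hp hq) with h0 | hpos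
    · rw [← h0] at hw'
      simp only [zero_smul] at hw'
      rw [← hw']
      exact ⟨0, hW0, by simp⟩
    · have hr : 0 < r := lt_of_lt_of_le hpos hpqr
      refine ⟨((p + q) / r) • w, ?_, ?_⟩
      · exact hW.smul_mem_of_zero_mem hW0 hw ⟨by positivity, by rw [div_le_one hr]; exact hpqr⟩
      · rw [← hw']
        simp only
        rw [smul_smul]; congr 1; field_simp
  -- separated sets for `s W`
  have hm2 : ∀ O : Finset V, (∀ x ∈ O, x ∈ U) → Sep O (s • W) → O.card ≤ m := by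
    intro O hO hsep
    refine Sep.card_le hm ?_ hsep hO
    exact hsubW (by positivity) (by positivity) (by linarith)
  have h0W : (0 : V) ∈ s • W := ⟨0, hW0, by simp⟩
  have hsW : ∀ x ∈ s • W, -x ∈ s • W := by
    rintro _ ⟨w, hw, rfl⟩
    exact ⟨-w, hWs w hw, by simp⟩
  obtain ⟨O₂, hO₂, hsep₂, hcov₂⟩ := exists_sep_cov h0W hsW hm2
  -- separated sets for `ε U + s W`
  have h0UW : (0 : V) ∈ (1 / 256 : ℝ) • U + s • W :=
    ⟨0, ⟨0, hU0, by simp⟩, 0, h0W, by simp⟩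
  have hsUW : ∀ x ∈ (1 / 256 : ℝ) • U + s • W, -x ∈ (1 / 256 : ℝ) • U + s • W := by
    rintro _ ⟨_, ⟨u, hu, rfl⟩, _, ⟨w, hw, rfl⟩, rfl⟩
    exact ⟨_, ⟨-u, hUs u hu, rfl⟩, _, ⟨-w, hWs w hw, rfl⟩, by simp [add_comm]⟩
  have hm1 : ∀ O : Finset V, (∀ x ∈ O, x ∈ U) → Sep O ((1 / 256 : ℝ) • U + s • W) →
      O.card ≤ m := by
    intro O hO hsep
    refine Sep.card_le hm (B := s • W) ?_ ?_ hO
    · exact hsubW (by positivity) (by positivity) (by linarith)
    · intro x hx y hy hxy hmem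
      exact hsep x hx y hy hxy ⟨0, ⟨0, hU0, by simp⟩, _, hmem, by simp⟩
  obtain ⟨O₁, hO₁, hsep₁, hcov₁⟩ := exists_sep_cov h0UW hsUW hm1
  refine ⟨O₁.card, O₂.card, ?_, hcov₁, hcov₂⟩
  -- inject the product
  obtain ⟨t, ht, hc⟩ := hm.exists_mem
  let pt : V × V → V := fun p => (1 - 1 / 1024 : ℝ) • p.1 + (1 / 1024 : ℝ) • p.2
  have hpt : ∀ p ∈ O₁ ×ˢ O₂, pt p ∈ U := by
    intro p hp
    rw [Finset.mem_product] at hp
    exact hU (hO₁ _ hp.1) (hO₂ _ hp.2) (by norm_num) (by norm_num) (by norm_num)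
  have hc' : ∀ p : V × V, ∃ x : V, p ∈ O₁ ×ˢ O₂ → x ∈ t ∧ pt p - x ∈ (s / 2048) • W := by
    intro p
    by_cases hp : p ∈ O₁ ×ˢ O₂
    · obtain ⟨x, hx, hax⟩ := hc _ (hpt p hp)
      exact ⟨x, fun _ => ⟨hx, hax⟩⟩
    · exact ⟨0, fun h => absurd h hp⟩
  choose f hf using hc'
  rw [← Finset.card_product]
  refine le_trans (Finset.card_le_card_of_injOn f (fun p hp => (hf p hp).1) ?_) ht
  intro p hp p' hp' hff
  have h1 := (hf p hp).2
  have h2 := (hf p' hp').2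
  rw [hff] at h1
  have hdiff : pt p - pt p' ∈ (s / 1024) • W := by
    have := hsubW (by positivity : (0:ℝ) ≤ s / 2048) (by positivity : (0:ℝ) ≤ s / 2048)
      (by linarith : s / 2048 + s / 2048 ≤ s / 1024) _ h1 _ h2
    simpa using this
  have hpm := Finset.mem_product.1 hp
  have hpm' := Finset.mem_product.1 hp'
  have e1 : p.1 = p'.1 := by
    by_contra hne
    apply hsep₁ _ hpm.1 _ hpm'.1 hne
    obtain ⟨w, hw, hw'⟩ := hdiff
    -- (1-η)(p.1 - p'.1) = (s/1024) w + η (p'.2 - p.2)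
    have hmid : (1 / 2 : ℝ) • p'.2 + (1 / 2 : ℝ) • (-p.2) ∈ U :=
      hU (hO₂ _ hpm'.2) (hUs _ (hO₂ _ hpm.2)) (by norm_num) (by norm_num) (by norm_num)
    have hkey : p.1 - p'.1 = (2 / 1023 : ℝ) • ((1 / 2 : ℝ) • p'.2 + (1 / 2 : ℝ) • (-p.2))
        + (s / 1023) • w := by
      have hw2 : (s / 1024) • w = ((1 - 1 / 1024 : ℝ) • p.1 + (1 / 1024 : ℝ) • p.2)
          - ((1 - 1 / 1024 : ℝ) • p'.1 + (1 / 1024 : ℝ) • p'.2) := hw'
      have hw3 : (s / 1023) • w = (1024 / 1023 : ℝ) • ((s / 1024) • w) := by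
        rw [smul_smul]; congr 1; ring
      rw [hw3, hw2]
      module
    rw [hkey]
    refine Set.add_mem_add ?_ ?_
    · refine ⟨(512 / 1023 : ℝ) • ((1 / 2 : ℝ) • p'.2 + (1 / 2 : ℝ) • (-p.2)), ?_, ?_⟩
      · exact hU.smul_mem_of_zero_mem hU0 hmid ⟨by norm_num, by norm_num⟩
      · simp only
        rw [smul_smul]; norm_num
    · refine ⟨(1 / 1023 : ℝ) • w, ?_, ?_⟩
      · exact hW.smul_mem_of_zero_mem hW0 hw ⟨by norm_num, by norm_num⟩
      · simp only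
        rw [smul_smul]; congr 1; ring
  have e2 : p.2 = p'.2 := by
    by_contra hne
    apply hsep₂ _ hpm.2 _ hpm'.2 hne
    obtain ⟨w, hw, hw'⟩ := hdiff
    refine ⟨w, hw, ?_⟩
    have hw2 : (s / 1024) • w = ((1 - 1 / 1024 : ℝ) • p.1 + (1 / 1024 : ℝ) • p.2)
          - ((1 - 1 / 1024 : ℝ) • p'.1 + (1 / 1024 : ℝ) • p'.2) := hw'
    have hw3 : s • w = (1024 : ℝ) • ((s / 1024) • w) := by
      rw [smul_smul]; congr 1; ring
    simp only
    rw [hw3, hw2, e1]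
    module
  exact Prod.ext e1 e2

end cover

end Vale.Agent.P126
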