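import Mathlib

open scoped Pointwise RealInnerProductSpace

namespace Vale.Agent.P126

/-- Origin-symmetric convex body in `ℝⁿ`. -/
structure IsSymBody {n : ℕ} (K : Set (EuclideanSpace ℝ (Fin n))) : Prop where
  convex : Convex ℝ K
  compact : IsCompact K
  nonempty_interior : (interior K).Nonempty
  symm : ∀ x ∈ K, -x ∈ K

/-- Covering number: least number of translates of `B` whose union contains `A`. -/
noncomputable def coverNum {n : ℕ} (A B : Set (EuclideanSpace ℝ (Fin n))) : ℕ :=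
  sInf {m : ℕ | ∃ t : Finset (EuclideanSpace ℝ (Fin n)), t.card = m ∧ A ⊆ ⋃ x ∈ t, (x +ᵥ B)}

/-- The polar body. -/
def polarBody {n : ℕ} (K : Set (EuclideanSpace ℝ (Fin n))) : Set (EuclideanSpace ℝ (Fin n)) :=
  {y | ∀ x ∈ K, ⟪x, y⟫ ≤ 1}

end Vale.Agent.P126
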