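import Mathlib

namespace Vale.Agent.P126.Dis

open Finset

/-- The number of sequences avoiding `D`. -/
theorem card_avoid {S : Type*} [Fintype S] [DecidableEq S] (l : ℕ) (D : Finset S) :
    (univ.filter fun τ : Fin l → S => ∀ i, τ i ∉ D).card = (Dᶜ.card) ^ l := by
  have e : (univ.filter fun τ : Fin l → S => ∀ i, τ i ∉ D) = Fintype.piFinset fun _ => Dᶜ := by
    ext τ
    simp [Fintype.mem_piFinset]
  rw [e, Fintype.card_piFinset]
  simp

/-- Random sampling: a sequence of length `l` hits all the relevant large sets, except for a small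
mass of `t`. -/
theorem exists_hitting {Lam N S : Type*} [Fintype Lam] [Fintype N] [Fintype S] [Nonempty S]
    [DecidableEq S] (lam : Lam → ℝ) (h0 : ∀ t, 0 ≤ lam t) (rel : Lam → N → Prop)
    (D : Lam → N → Finset S) (p : ℝ) (hp1 : p ≤ 1)
    (hD : ∀ t v, rel t v → p * Fintype.card S ≤ (D t v).card) (l : ℕ) :
    ∃ τ : Fin l → S, ∀ bad : Lam → Prop, ∀ _ : DecidablePred bad,
      (∀ t, bad t → ∃ v, rel t v ∧ ∀ i, τ i ∉ D t v) →
      ∑ t with bad t, lam t ≤ Fintype.card N * (1 - p) ^ l * ∑ t, lam t := by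
  classical
  set s : ℝ := (Fintype.card S : ℝ) with hs
  have hs0 : 0 < s := by
    rw [hs]
    exact_mod_cast Fintype.card_pos
  have hp1' : 0 ≤ 1 - p := by linarith
  let f : (Fin l → S) → ℝ := fun τ =>
    ∑ t, if (∃ v, rel t v ∧ ∀ i, τ i ∉ D t v) then lam t else 0
  have hcard : ∀ t v, rel t v →
      ((univ.filter fun τ : Fin l → S => ∀ i, τ i ∉ D t v).card : ℝ) ≤ (1 - p) ^ l * s ^ l := by
    intro t v h
    rw [card_avoid, ← mul_pow]
    push_cast
    refine pow_le_pow_left₀ (by positivity) ?_ l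
    rw [card_compl, Nat.cast_sub (card_le_univ _)]
    have := hD t v h
    linarith
  have hq : 0 ≤ (1 - p) ^ l * s ^ l := by positivity
  have hsum : ∑ τ, f τ ≤ ∑ _τ : Fin l → S, (Fintype.card N * (1 - p) ^ l * ∑ t, lam t) := by
    have e1 : ∑ τ, f τ = ∑ t, ∑ τ : Fin l → S,
        if (∃ v, rel t v ∧ ∀ i, τ i ∉ D t v) then lam t else 0 := sum_comm
    rw [e1, sum_const, nsmul_eq_mul]
    have e2 : ∀ t, (∑ τ : Fin l → S, if (∃ v, rel t v ∧ ∀ i, τ i ∉ D t v) then lam t else 0) ≤
        lam t * (Fintype.card N * ((1 - p) ^ l * s ^ l)) := by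
      intro t
      rw [← sum_filter, sum_const, nsmul_eq_mul, mul_comm]
      refine mul_le_mul_of_nonneg_left ?_ (h0 t)
      have e3 : (univ.filter fun τ : Fin l → S => ∃ v, rel t v ∧ ∀ i, τ i ∉ D t v) ⊆
          univ.biUnion fun v => if rel t v then univ.filter fun τ : Fin l → S =>
            ∀ i, τ i ∉ D t v else ∅ := by
        intro τ hτ
        rw [mem_filter] at hτ
        obtain ⟨-, v, hv, hi⟩ := hτ
        rw [mem_biUnion]
        refine ⟨v, mem_univ _, ?_⟩
        rw [if_pos hv, mem_filter]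
        exact ⟨mem_univ _, hi⟩
      have e4 := (card_le_card e3).trans card_biUnion_le
      have e5 : ((univ.filter fun τ : Fin l → S => ∃ v, rel t v ∧ ∀ i, τ i ∉ D t v).card : ℝ) ≤
          ∑ v : N, ((1 - p) ^ l * s ^ l) := by
        have e4' : ((univ.filter fun τ : Fin l → S => ∃ v, rel t v ∧
            ∀ i, τ i ∉ D t v).card : ℝ) ≤ ∑ v : N, (((if rel t v then
              univ.filter fun τ : Fin l → S => ∀ i, τ i ∉ D t v else ∅ :
                Finset (Fin l → S)).card : ℕ) : ℝ) := by exact_mod_cast e4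
        refine e4'.trans ?_
        refine sum_le_sum fun v _ => ?_
        by_cases hv : rel t v
        · rw [if_pos hv]
          exact hcard t v hv
        · rw [if_neg hv]
          simpa using hq
      rw [sum_const, card_univ, nsmul_eq_mul] at e5
      exact e5
    refine (sum_le_sum fun t _ => e2 t).trans (le_of_eq ?_)
    rw [← sum_mul]
    have e6 : ((univ : Finset (Fin l → S)).card : ℝ) = s ^ l := by
      rw [card_univ, Fintype.card_fun, Fintype.card_fin, hs]
      push_cast
      rfl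
    rw [e6]
    ring
  obtain ⟨τ, -, hτ⟩ := exists_le_of_sum_le (univ_nonempty) hsum
  refine ⟨τ, fun bad _ hbad => ?_⟩
  refine le_trans ?_ hτ
  rw [sum_filter]
  refine sum_le_sum fun t _ => ?_
  by_cases h : bad t
  · rw [if_pos h, if_pos (hbad t h)]
  · rw [if_neg h]
    split_ifs
    · exact h0 t
    · exact le_rfl

end Vale.Agent.P126.Dis
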