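import Vale.Agent.P126.AssemblyK

open scoped Pointwise RealInnerProductSpace

namespace Vale.Agent.P126

variable {n : ℕ}

/-- Homothets have the same covering number (one inequality). -/
lemma coverNum_smul_le {K L : Set (EuclideanSpace ℝ (Fin n))} (hK : IsSymBody K)
    (hL : IsSymBody L) (a : ℝ) : coverNum (a • K) (a • L) ≤ coverNum K L := by
  classical
  obtain ⟨m, hm⟩ := exists_cov (A := K) (B := L) hK.compact hL.nonempty_interior
  obtain ⟨t, ht, hc⟩ := (cov_coverNum hm).exists_mem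
  apply coverNum_le
  refine Cov.of_forall (t.image fun x => a • x) (Finset.card_image_le.trans ht) ?_
  rintro _ ⟨y, hy, rfl⟩
  obtain ⟨x, hx, hyx⟩ := hc y hy
  exact ⟨_, Finset.mem_image_of_mem _ hx, ⟨_, hyx, by simp only; rw [smul_sub]⟩⟩

lemma log_cast_mono {p q : ℕ} (h : p ≤ q) : Real.log p ≤ Real.log q := by
  rcases Nat.eq_zero_or_pos p with h0 | hp
  · rw [h0]; simpa using Real.log_natCast_nonneg _
  · exact Real.log_le_log (by exact_mod_cast hp) (by exact_mod_cast h)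

/-- The covering number decreases in the covering body. -/
lemma log_coverNum_anti {A B : Set (EuclideanSpace ℝ (Fin n))} (hA : IsSymBody A)
    (hB : IsSymBody B) {s t : ℝ} (hs : 0 < s) (hst : s ≤ t) :
    Real.log (coverNum A (t • B)) ≤ Real.log (coverNum A (s • B)) := by
  apply log_cast_mono
  obtain ⟨m, hm⟩ := exists_cov (A := A) (B := s • B) hA.compact (hB.smul hs).nonempty_interior
  apply coverNum_le
  refine (cov_coverNum hm).mono (Set.Subset.refl _) ?_ le_rfl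
  rintro _ ⟨w, hw, rfl⟩
  have ht : 0 < t := lt_of_lt_of_le hs hst
  refine ⟨(s / t) • w, ?_, ?_⟩
  · exact hB.convex.smul_mem_of_zero_mem hB.zero_mem hw
      ⟨by positivity, by rw [div_le_one ht]; exact hst⟩
  · simp only
    rw [smul_smul]; congr 1; field_simp

/-- First half of the duality with exponent `1 + 1 / k`. -/
theorem dual_left {K L : Set (EuclideanSpace ℝ (Fin n))} (hK : IsSymBody K) (hL : IsSymBody L)
    {k j : ℕ} (hk : 1 ≤ k) (hj : k + 1 ≤ 2 ^ j) :
    Real.log (coverNum K L) ≤ 2 ^ 13 * k * (11 + j) ^ 2 *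
      Real.log (coverNum (polarBody L) ((2 ^ (18 + 2 * j) : ℝ)⁻¹ • polarBody K)) ^
        (1 + 1 / (k : ℝ)) := by
  have h := main_halfK hK hL hk hj
  rw [psi, one_div (2 ^ (18 + 2 * j) : ℝ)] at h
  exact h

/-- Second half of the duality with exponent `1 + 1 / k`. -/
theorem dual_right {K L : Set (EuclideanSpace ℝ (Fin n))} (hK : IsSymBody K) (hL : IsSymBody L)
    {k j : ℕ} (hk : 1 ≤ k) (hj : k + 1 ≤ 2 ^ j) :
    Real.log (coverNum (polarBody L) ((2 ^ (18 + 2 * j) : ℝ) • polarBody K)) ≤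
      2 ^ 13 * k * (11 + j) ^ 2 * Real.log (coverNum K L) ^ (1 + 1 / (k : ℝ)) := by
  have ha : (0 : ℝ) < 2 ^ (18 + 2 * j) := by positivity
  have h := main_halfK hL.polar (hK.polar.smul ha) hk hj
  rw [psi, polarBody_smul ha,
    polarBody_polarBody hK.convex hK.compact.isClosed hK.zero_mem,
    polarBody_polarBody hL.convex hL.compact.isClosed hL.zero_mem,
    one_div (2 ^ (18 + 2 * j) : ℝ)] at h
  have hcov' := log_cast_mono (coverNum_smul_le hK hL (2 ^ (18 + 2 * j) : ℝ)⁻¹)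
  have hsq := Real.rpow_le_rpow (Real.log_natCast_nonneg _) hcov'
    (show 0 ≤ 1 + 1 / (k : ℝ) by positivity)
  exact h.trans (mul_le_mul_of_nonneg_left hsq (by positivity))

/-- Passing from the exponent `1 + q` to a larger one for logarithms of integers. -/
lemma rpow_log_le {N : ℕ} {q δ : ℝ} (hq : 0 ≤ q) (hqδ : q ≤ δ) :
    Real.log N ^ (1 + q) ≤ 2 ^ (1 + δ) * Real.log N ^ (1 + δ) := by
  have hx : 0 ≤ Real.log N := Real.log_natCast_nonneg _
  rcases eq_or_lt_of_le hx with h0 | hpos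
  · rw [← h0, Real.zero_rpow (by linarith), Real.zero_rpow (by linarith)]; simp
  · have hN2 : 2 ≤ N := by
      by_contra hcon
      have : N = 0 ∨ N = 1 := by omega
      rcases this with h | h <;> simp [h] at hpos
    have h2 : Real.log 2 ≤ Real.log N := Real.log_le_log (by norm_num) (by exact_mod_cast hN2)
    have h3 : (1 : ℝ) / 2 ≤ Real.log 2 := by
      have := Real.log_two_gt_d9; linarith
    have h4 : 1 ≤ 2 * Real.log N := by linarith
    rw [← Real.mul_rpow (by norm_num) hx]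
    calc Real.log N ^ (1 + q) ≤ (2 * Real.log N) ^ (1 + q) :=
          Real.rpow_le_rpow hx (by linarith) (by linarith)
      _ ≤ (2 * Real.log N) ^ (1 + δ) := Real.rpow_le_rpow_of_exponent_le h4 (by linarith)

/-- Numerical bound used with `k = ⌈log (2 + R)⌉`. -/
lemma const_bound (k : ℕ) (hk : 1 ≤ k) :
    ∃ j : ℕ, k + 1 ≤ 2 ^ j ∧ (2 : ℝ) ^ (18 + 2 * j) ≤ 2 ^ 20 * (k : ℝ) ^ 2 ∧
      (11 + (j : ℝ)) ^ 2 ≤ 144 * k := by
  have hkR : (1 : ℝ) ≤ k := by exact_mod_cast hk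
  obtain ⟨j, hj1, hj2⟩ : ∃ j : ℕ, k + 1 ≤ 2 ^ j ∧ 2 ^ j ≤ 2 * k := by
    refine ⟨Nat.clog 2 (k + 1), Nat.le_pow_clog one_lt_two _, ?_⟩
    have h1 := Nat.pow_pred_clog_lt_self (b := 2) one_lt_two (x := k + 1) (by omega)
    have h2 : 0 < Nat.clog 2 (k + 1) := Nat.clog_pos one_lt_two (by omega)
    obtain ⟨i, hi⟩ := Nat.exists_eq_succ_of_ne_zero h2.ne'
    rw [hi] at h1 ⊢
    simp only [Nat.pred_succ] at h1
    rw [Nat.succ_eq_add_one, pow_succ]
    omega
  refine ⟨j, hj1, ?_, ?_⟩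
  · have h : (2 : ℝ) ^ j ≤ 2 * k := by exact_mod_cast hj2
    have h' : ((2 : ℝ) ^ j) ^ 2 ≤ (2 * k) ^ 2 := pow_le_pow_left₀ (by positivity) h 2
    calc (2 : ℝ) ^ (18 + 2 * j) = 2 ^ 18 * ((2 : ℝ) ^ j) ^ 2 := by
          rw [pow_add, ← pow_mul]; ring
      _ ≤ 2 ^ 18 * (2 * k) ^ 2 := by gcongr
      _ = 2 ^ 20 * (k : ℝ) ^ 2 := by ring
  · -- `(11 + j)² ≤ 72 * 2 ^ j`
    have hj0 : 1 ≤ j := by
      by_contra hcon
      have : j = 0 := by omega
      rw [this] at hj1; simp at hj1; omega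
    have key : ∀ i : ℕ, 1 ≤ i → (11 + i) ^ 2 ≤ 72 * 2 ^ i := by
      intro i hi
      induction i, hi using Nat.le_induction with
      | base => norm_num
      | succ i hi ih => rw [pow_succ 2 i]; nlinarith
    have h1 : (11 + j) ^ 2 ≤ 144 * k := by
      calc (11 + j) ^ 2 ≤ 72 * 2 ^ j := key j hj0
        _ ≤ 72 * (2 * k) := Nat.mul_le_mul_left _ hj2
        _ = 144 * k := by ring
    exact_mod_cast h1

/-- `R ^ (1 + 1 / k) ≤ 3 R` for `k = ⌈log (2 + R)⌉`. -/
lemma rpow_le_three {R : ℝ} (hR : 0 ≤ R) {k : ℕ} (hk1 : 1 ≤ k) (hk : Real.log (2 + R) ≤ k) :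
    R ^ (1 + 1 / (k : ℝ)) ≤ 3 * R := by
  have hk0 : (0 : ℝ) < k := by exact_mod_cast hk1
  rw [Real.rpow_add_of_nonneg hR zero_le_one (by positivity), Real.rpow_one, mul_comm]
  apply mul_le_mul_of_nonneg_right _ hR
  have h1 : R ≤ Real.exp k := by
    have : 2 + R ≤ Real.exp k := by
      rw [← Real.log_le_iff_le_exp (by linarith)]; exact hk
    linarith
  calc R ^ (1 / (k : ℝ)) ≤ (Real.exp k) ^ (1 / (k : ℝ)) :=
        Real.rpow_le_rpow hR h1 (by positivity)
    _ = Real.exp 1 := by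
        rw [← Real.exp_mul]; congr 1; field_simp
    _ ≤ 3 := by have := Real.exp_one_lt_d9; linarith

end Vale.Agent.P126
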