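import Mathlib

open scoped Pointwise RealInnerProductSpace

namespace Vale.Agent.P126

variable {V : Type*} [NormedAddCommGroup V] [InnerProductSpace ℝ V]

/-- Data for the local estimate with precision `ε`: `Om` a finite set of points, `U` a symmetric
convex set of functionals bounded by `4` on `Om`, separating the points of `Om`, and a colouring `c`
of `U` by the finite set `t` such that equal colours are `ε`-close on `Om`. -/
structure LocalDataE (Om : Finset V) (U : Set V) (c : V → V) (t : Finset V) (ε : ℝ) : Prop where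
  convex : Convex ℝ U
  symm : ∀ f ∈ U, -f ∈ U
  bdd : ∀ f ∈ U, ∀ x ∈ Om, |⟪f, x⟫| ≤ 4
  sep : ∀ x ∈ Om, ∀ y ∈ Om, x ≠ y → ∃ f ∈ U, 1 < ⟪f, x⟫ - ⟪f, y⟫
  maps : ∀ f ∈ U, c f ∈ t
  close : ∀ f ∈ U, ∀ g ∈ U, c f = c g → ∀ x ∈ Om, |⟪f, x⟫ - ⟪g, x⟫| ≤ ε

/-- A weighted family of functionals `Λ i ∈ U` with base points `w i ∈ O` such that for every point
`z ∈ Om` the exponential moment of `⟪Λ i, z⟫ - ⟪Λ i, w i⟫` at `θ` is at most `B`. -/
def MK (Om : Finset V) (U : Set V) (O : Finset V) (θ B : ℝ) : Prop :=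
  ∃ (ι : Type) (_ : Fintype ι) (p : ι → ℝ) (Lam w : ι → V),
    (∀ i, 0 ≤ p i) ∧ ∑ i, p i = 1 ∧ (∀ i, Lam i ∈ U) ∧ (∀ i, w i ∈ O) ∧
    ∀ z ∈ Om, ∑ i, p i * Real.exp (θ * (⟪Lam i, z⟫ - ⟪Lam i, w i⟫)) ≤ B

variable {Om : Finset V} {U : Set V} {c : V → V} {t : Finset V} {ε : ℝ}

/-- Removing, for each colour, the top `1 / (2 |t|)` portion: every remaining point lies in large
half-spaces only. -/
lemma ostar (h : LocalDataE Om U c t ε) (O : Finset V) (hO : O ⊆ Om) (ht : 1 ≤ t.card) :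
    ∃ O' ⊆ O, O.card ≤ 2 * O'.card ∧ ∀ w ∈ O', ∀ f ∈ U,
      O.card ≤ 2 * t.card * (O.filter (fun X => ⟪f, w⟫ - 2 * ε ≤ ⟪f, X⟫)).card := by
  classical
  have hrep : ∀ q : V, ∃ g : V, (∃ f ∈ U, c f = q) → g ∈ U ∧ c g = q := by
    intro q
    by_cases hq : ∃ f ∈ U, c f = q
    · obtain ⟨f, hf, hfq⟩ := hq
      exact ⟨f, fun _ => ⟨hf, hfq⟩⟩
    · exact ⟨0, fun h' => absurd h' hq⟩
  choose rep hrep using hrep
  -- bad points for colour `q`
  let B : V → Finset V := fun q => O.filter (fun w =>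
    2 * t.card * (O.filter (fun X => ⟪rep q, w⟫ ≤ ⟪rep q, X⟫)).card < O.card)
  have hB : ∀ q, 2 * t.card * (B q).card ≤ O.card := by
    intro q
    rcases (B q).eq_empty_or_nonempty with he | hne
    · rw [he]; simp
    · obtain ⟨w0, hw0, hmin⟩ := Finset.exists_min_image (B q) (fun w => ⟪rep q, w⟫) hne
      have h1 := (Finset.mem_filter.1 hw0).2
      have hsub : B q ⊆ O.filter (fun X => ⟪rep q, w0⟫ ≤ ⟪rep q, X⟫) := by
        intro w hw
        exact Finset.mem_filter.2 ⟨(Finset.mem_filter.1 hw).1, hmin w hw⟩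
      have h2 := Finset.card_le_card hsub
      calc 2 * t.card * (B q).card ≤ _ := Nat.mul_le_mul_left _ h2
        _ ≤ O.card := h1.le
  refine ⟨O \ t.biUnion B, Finset.sdiff_subset, ?_, ?_⟩
  · have h1 : (t.biUnion B).card ≤ ∑ q ∈ t, (B q).card := Finset.card_biUnion_le
    have h2 : 2 * t.card * (t.biUnion B).card ≤ t.card * O.card := by
      calc 2 * t.card * (t.biUnion B).card ≤ 2 * t.card * ∑ q ∈ t, (B q).card :=
            Nat.mul_le_mul_left _ h1
        _ = ∑ q ∈ t, 2 * t.card * (B q).card := by rw [Finset.mul_sum]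
        _ ≤ ∑ q ∈ t, O.card := Finset.sum_le_sum fun q _ => hB q
        _ = t.card * O.card := by rw [Finset.sum_const, smul_eq_mul]
    have h3 : 2 * (t.biUnion B).card ≤ O.card := by
      have : t.card * (2 * (t.biUnion B).card) ≤ t.card * O.card := by
        calc _ = 2 * t.card * (t.biUnion B).card := by ring
          _ ≤ _ := h2
      exact Nat.le_of_mul_le_mul_left this (by omega)
    have h4 : O.card ≤ (O \ t.biUnion B).card + (t.biUnion B).card := by
      have := Finset.card_sdiff_add_card O (t.biUnion B)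
      have h5 := Finset.card_le_card (Finset.subset_union_left (s₁ := O) (s₂ := t.biUnion B))
      omega
    omega
  · intro w hw f hf
    rw [Finset.mem_sdiff, Finset.mem_biUnion] at hw
    obtain ⟨hwO, hwB⟩ := hw
    push Not at hwB
    have hq := h.maps f hf
    have h1 := hwB (c f) hq
    have hr := hrep (c f) ⟨f, hf, rfl⟩
    have h2 : O.card ≤ 2 * t.card * (O.filter (fun X => ⟪rep (c f), w⟫ ≤ ⟪rep (c f), X⟫)).card := by
      by_contra hcon
      push Not at hcon
      exact h1 (Finset.mem_filter.2 ⟨hwO, hcon⟩)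
    refine h2.trans (Nat.mul_le_mul_left _ (Finset.card_le_card ?_))
    intro X hX
    rw [Finset.mem_filter] at hX ⊢
    refine ⟨hX.1, ?_⟩
    have k1 := h.close f hf _ hr.1 hr.2.symm X (hO hX.1)
    have k2 := h.close f hf _ hr.1 hr.2.symm w (hO hwO)
    rw [abs_le] at k1 k2
    linarith [k1.1, k2.2, hX.2]

/-- The base kernel: two separated points. -/
lemma base_MK (h : LocalDataE Om U c t ε) (O : Finset V) (hO : O ⊆ Om) (h2 : 2 ≤ O.card) :
    MK Om U O (1 / 128) (Real.exp (-(1 / 128 * (1 / 4)))) := by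
  obtain ⟨x, hx, y, hy, hxy⟩ := Finset.one_lt_card.1 (by omega : 1 < O.card)
  obtain ⟨f, hf, hf1⟩ := h.sep x (hO hx) y (hO hy) hxy
  refine ⟨Bool, inferInstance, fun _ => 1 / 2, fun b => if b then f else -f,
    fun b => if b then x else y, fun _ => by norm_num, by norm_num [Fintype.sum_bool], ?_, ?_, ?_⟩
  · intro b; cases b
    · simpa using h.symm f hf
    · simpa using hf
  · intro b; cases b
    · simpa using hy
    · simpa using hx
  · intro z hz
    rw [Fintype.sum_bool]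
    simp only [if_true, Bool.false_eq_true, if_false, inner_neg_left]
    set u := ⟪f, z⟫ - (⟪f, x⟫ + ⟪f, y⟫) / 2 with hu
    have hbz := h.bdd f hf z hz
    have hbx := h.bdd f hf x (hO hx)
    have hby := h.bdd f hf y (hO hy)
    rw [abs_le] at hbz hbx hby
    have hu8 : |u| ≤ 8 := by
      rw [abs_le, hu]; constructor <;> linarith [hbz.1, hbz.2, hbx.1, hbx.2, hby.1, hby.2]
    have e1 : Real.exp (1 / 128 * (⟪f, z⟫ - ⟪f, x⟫)) ≤
        Real.exp (-(1 / 256)) * Real.exp (1 / 128 * u) := by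
      rw [← Real.exp_add]; apply Real.exp_le_exp.2; rw [hu]; linarith
    have e2 : Real.exp (1 / 128 * (-⟪f, z⟫ - -⟪f, y⟫)) ≤
        Real.exp (-(1 / 256)) * Real.exp (-(1 / 128 * u)) := by
      rw [← Real.exp_add]; apply Real.exp_le_exp.2; rw [hu]; linarith
    have h3 : Real.exp (1 / 128 * u) + Real.exp (-(1 / 128 * u)) ≤ 2 * Real.exp (1 / 512) := by
      have h1 := Real.cosh_le_exp_half_sq (1 / 128 * u)
      have h2 : Real.exp (1 / 128 * u) + Real.exp (-(1 / 128 * u)) =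
          2 * Real.cosh (1 / 128 * u) := by rw [Real.cosh_eq]; ring
      rw [h2]
      have h3 : (1 / 128 * u) ^ 2 / 2 ≤ 1 / 512 := by
        have : u ^ 2 ≤ 64 := by
          have := sq_abs u
          nlinarith [abs_nonneg u]
        nlinarith
      have h4 := Real.exp_le_exp.2 h3
      linarith
    have hexp : Real.exp (-(1 / 256)) * Real.exp (1 / 512) =
        Real.exp (-(1 / 128 * (1 / 4))) := by
      rw [← Real.exp_add]; norm_num
    rw [← hexp]
    have hpos := Real.exp_pos (-(1 / 256 : ℝ))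
    nlinarith

/-- Nesting `n` kernels. -/
lemma nest (h : LocalDataE Om U c t ε) (ht : 1 ≤ t.card) (hU : U.Nonempty) {θ B : ℝ} {S : ℕ}
    (hS : 1 ≤ S) (hB : 0 ≤ B)
    (hker : ∀ O : Finset V, O ⊆ Om → S ≤ O.card → MK Om U O θ B) :
    ∀ (n : ℕ) (O : Finset V), O ⊆ Om → 2 * S * (2 * t.card) ^ n ≤ O.card →
      ∃ (ι : Type) (_ : Fintype ι) (p : ι → ℝ) (Lam w : ι → V) (s : ι → ℝ),
        (∀ i, 0 ≤ p i) ∧ ∑ i, p i = 1 ∧ (∀ i, Lam i ∈ (n : ℝ) • U) ∧ (∀ i, w i ∈ O) ∧
        (∀ i, s i - 2 * ε * n ≤ ⟪Lam i, w i⟫) ∧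
        ∀ z ∈ Om, ∑ i, p i * Real.exp (θ * (⟪Lam i, z⟫ - s i)) ≤ B ^ n := by
  intro n
  induction n with
  | zero =>
    intro O hO hcard
    have hpos : 0 < O.card := by
      have : 0 < 2 * S * (2 * t.card) ^ 0 := by simp; omega
      omega
    obtain ⟨x, hx⟩ := Finset.card_pos.1 hpos
    refine ⟨Unit, inferInstance, fun _ => 1, fun _ => 0, fun _ => x, fun _ => 0,
      fun _ => zero_le_one, by simp, ?_, fun _ => hx, ?_, ?_⟩
    · intro _
      obtain ⟨u, hu⟩ := hU
      exact ⟨u, hu, by simp⟩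
    · intro _; simp
    · intro z hz; simp
  | succ n ih =>
    intro O hO hcard
    have hOpos : 0 < O.card := lt_of_lt_of_le (by positivity) hcard
    obtain ⟨O', hO'O, hO'card, hO'⟩ := ostar h O hO ht
    have hS' : S ≤ O'.card := by
      have h1 : 2 * S ≤ 2 * S * (2 * t.card) ^ (n + 1) :=
        Nat.le_mul_of_pos_right _ (by positivity)
      omega
    obtain ⟨ι, _, p, lam, w, hp0, hp1, hlam, hw, hmgf⟩ := hker O' (hO'O.trans hO) hS'
    -- the next population
    have hnext : ∀ i, 2 * S * (2 * t.card) ^ n ≤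
        (O.filter (fun X => ⟪lam i, w i⟫ - 2 * ε ≤ ⟪lam i, X⟫)).card := by
      intro i
      have h1 := hO' (w i) (hw i) (lam i) (hlam i)
      have h2 : (2 * t.card) * (2 * S * (2 * t.card) ^ n) ≤
          (2 * t.card) * (O.filter (fun X => ⟪lam i, w i⟫ - 2 * ε ≤ ⟪lam i, X⟫)).card := by
        calc _ = 2 * S * (2 * t.card) ^ (n + 1) := by ring
          _ ≤ O.card := hcard
          _ ≤ _ := h1
      exact Nat.le_of_mul_le_mul_left h2 (by omega)
    choose κ hκ q Lam' w' s' hq0 hq1 hLam' hw' hs' hmgf' using fun i =>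
      ih (O.filter (fun X => ⟪lam i, w i⟫ - 2 * ε ≤ ⟪lam i, X⟫))
        ((Finset.filter_subset _ _).trans hO) (hnext i)
    have hscale : ∀ {v u : V}, v ∈ (n : ℝ) • U → u ∈ U → u + v ∈ ((n + 1 : ℕ) : ℝ) • U := by
      intro v u hv hu
      rw [Nat.cast_succ, h.convex.add_smul (Nat.cast_nonneg n) zero_le_one, one_smul, add_comm u v]
      exact Set.add_mem_add hv hu
    refine ⟨(Σ i, κ i), inferInstance, fun x => p x.1 * q x.1 x.2,
      fun x => lam x.1 + Lam' x.1 x.2, fun x => w' x.1 x.2,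
      fun x => ⟪lam x.1, w x.1⟫ + s' x.1 x.2, ?_, ?_, ?_, ?_, ?_, ?_⟩
    · intro x; exact mul_nonneg (hp0 _) (hq0 _ _)
    · rw [Fintype.sum_sigma]
      calc ∑ i, ∑ j, p i * q i j = ∑ i, p i := by
            apply Finset.sum_congr rfl
            intro i _
            rw [← Finset.mul_sum, hq1, mul_one]
        _ = 1 := hp1
    · intro x; exact hscale (hLam' _ _) (hlam _)
    · intro x; exact (Finset.mem_filter.1 (hw' x.1 x.2)).1
    · intro x
      have h1 := (Finset.mem_filter.1 (hw' x.1 x.2)).2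
      have h2 := hs' x.1 x.2
      rw [inner_add_left]
      push_cast
      linarith
    · intro z hz
      rw [Fintype.sum_sigma]
      calc ∑ i, ∑ j, p i * q i j *
            Real.exp (θ * (⟪lam i + Lam' i j, z⟫ - (⟪lam i, w i⟫ + s' i j)))
          = ∑ i, p i * Real.exp (θ * (⟪lam i, z⟫ - ⟪lam i, w i⟫)) *
              ∑ j, q i j * Real.exp (θ * (⟪Lam' i j, z⟫ - s' i j)) := by
            apply Finset.sum_congr rfl
            intro i _
            rw [Finset.mul_sum]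
            apply Finset.sum_congr rfl
            intro j _
            rw [inner_add_left]
            have : θ * (⟪lam i, z⟫ + ⟪Lam' i j, z⟫ - (⟪lam i, w i⟫ + s' i j)) =
                θ * (⟪lam i, z⟫ - ⟪lam i, w i⟫) + θ * (⟪Lam' i j, z⟫ - s' i j) := by ring
            rw [this, Real.exp_add]
            ring
        _ ≤ ∑ i, p i * Real.exp (θ * (⟪lam i, z⟫ - ⟪lam i, w i⟫)) * B ^ n := by
            apply Finset.sum_le_sum
            intro i _
            apply mul_le_mul_of_nonneg_left (hmgf' i z hz)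
            exact mul_nonneg (hp0 i) (Real.exp_pos _).le
        _ = (∑ i, p i * Real.exp (θ * (⟪lam i, z⟫ - ⟪lam i, w i⟫))) * B ^ n := by
            rw [Finset.sum_mul]
        _ ≤ B * B ^ n := by
            apply mul_le_mul_of_nonneg_right (hmgf z hz) (by positivity)
        _ = B ^ (n + 1) := by ring

/-- One order: from `(θ, exp (-b θ))` to `(n θ, exp (-(b - 2 ε) n θ))`. -/
lemma order_step (h : LocalDataE Om U c t ε) (ht : 1 ≤ t.card) (hU : U.Nonempty) {θ b : ℝ}
    (hθ : 0 ≤ θ) {S : ℕ} (hS : 1 ≤ S)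
    (hker : ∀ O : Finset V, O ⊆ Om → S ≤ O.card → MK Om U O θ (Real.exp (-(θ * b))))
    {n : ℕ} (hn : 1 ≤ n) (O : Finset V) (hO : O ⊆ Om)
    (hcard : 2 * S * (2 * t.card) ^ n ≤ O.card) :
    MK Om U O (n * θ) (Real.exp (-(n * θ * (b - 2 * ε)))) := by
  obtain ⟨ι, _, p, Lam, w, s, hp0, hp1, hLam, hw, hs, hmgf⟩ :=
    nest h ht hU hS (Real.exp_pos _).le hker n O hO hcard
  have hnR : (0 : ℝ) < n := by exact_mod_cast hn
  have hlam : ∀ i, ∃ u ∈ U, Lam i = (n : ℝ) • u := by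
    intro i
    obtain ⟨u, hu, hu'⟩ := hLam i
    exact ⟨u, hu, hu'.symm⟩
  choose u huU hu using hlam
  refine ⟨ι, inferInstance, p, u, w, hp0, hp1, huU, hw, ?_⟩
  intro z hz
  have h1 : ∀ i, p i * Real.exp (n * θ * (⟪u i, z⟫ - ⟪u i, w i⟫)) ≤
      Real.exp (θ * (2 * ε * n)) * (p i * Real.exp (θ * (⟪Lam i, z⟫ - s i))) := by
    intro i
    have h2 : Real.exp (n * θ * (⟪u i, z⟫ - ⟪u i, w i⟫)) ≤
        Real.exp (θ * (2 * ε * n)) * Real.exp (θ * (⟪Lam i, z⟫ - s i)) := by
      rw [← Real.exp_add]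
      apply Real.exp_le_exp.2
      have h3 := hs i
      rw [hu i, inner_smul_left] at h3 ⊢
      simp only [conj_trivial] at h3 ⊢
      have h4 : θ * (s i - 2 * ε * n) ≤ θ * (n * ⟪u i, w i⟫) := mul_le_mul_of_nonneg_left h3 hθ
      nlinarith
    calc p i * Real.exp (n * θ * (⟪u i, z⟫ - ⟪u i, w i⟫))
        ≤ p i * (Real.exp (θ * (2 * ε * n)) * Real.exp (θ * (⟪Lam i, z⟫ - s i))) :=
          mul_le_mul_of_nonneg_left h2 (hp0 i)
      _ = _ := by ring
  calc ∑ i, p i * Real.exp (n * θ * (⟪u i, z⟫ - ⟪u i, w i⟫))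
      ≤ ∑ i, Real.exp (θ * (2 * ε * n)) * (p i * Real.exp (θ * (⟪Lam i, z⟫ - s i))) :=
        Finset.sum_le_sum fun i _ => h1 i
    _ = Real.exp (θ * (2 * ε * n)) * ∑ i, p i * Real.exp (θ * (⟪Lam i, z⟫ - s i)) := by
        rw [Finset.mul_sum]
    _ ≤ Real.exp (θ * (2 * ε * n)) * Real.exp (-(θ * b)) ^ n :=
        mul_le_mul_of_nonneg_left (hmgf z hz) (Real.exp_pos _).le
    _ = Real.exp (-(n * θ * (b - 2 * ε))) := by
        rw [← Real.exp_nat_mul, ← Real.exp_add]; congr 1; ring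

/-- `k` orders. -/
lemma orders (h : LocalDataE Om U c t ε) (ht : 1 ≤ t.card) (hU : U.Nonempty) {n : ℕ}
    (hn : 1 ≤ n) :
    ∀ (k : ℕ) (O : Finset V), O ⊆ Om → 2 * (2 * (2 * t.card) ^ n) ^ k ≤ O.card →
      MK Om U O ((n : ℝ) ^ k * (1 / 128))
        (Real.exp (-((n : ℝ) ^ k * (1 / 128) * (1 / 4 - 2 * ε * k)))) := by
  intro k
  induction k with
  | zero =>
    intro O hO hcard
    have := base_MK h O hO (by simpa using hcard)
    simpa using this
  | succ k ih =>
    intro O hO hcard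
    have hS : 1 ≤ 2 * (2 * (2 * t.card) ^ n) ^ k := by
      have : 0 < 2 * (2 * (2 * t.card) ^ n) ^ k := by positivity
      omega
    have := order_step h ht hU (θ := (n : ℝ) ^ k * (1 / 128)) (b := 1 / 4 - 2 * ε * k)
      (by positivity) hS ih hn O hO (by
        calc 2 * (2 * (2 * (2 * t.card) ^ n) ^ k) * (2 * t.card) ^ n
            = 2 * (2 * (2 * t.card) ^ n) ^ (k + 1) := by ring
          _ ≤ O.card := hcard)
    have e1 : (n : ℝ) * ((n : ℝ) ^ k * (1 / 128)) = (n : ℝ) ^ (k + 1) * (1 / 128) := by ring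
    have e2 : (1 / 4 - 2 * ε * k - 2 * ε : ℝ) = 1 / 4 - 2 * ε * ((k + 1 : ℕ) : ℝ) := by
      push_cast; ring
    rw [e1, e2] at this
    exact this

/-- The number of colours bounds the gain of any kernel. -/
lemma gain_le (h : LocalDataE Om U c t ε) {O : Finset V} (hO : O ⊆ Om) {θ b : ℝ} (hθ : 0 ≤ θ)
    (hK : MK Om U O θ (Real.exp (-(θ * b)))) : θ * (b - ε) ≤ Real.log t.card := by
  classical
  obtain ⟨ι, _, p, Lam, w, hp0, hp1, hLam, hw, hmgf⟩ := hK
  have hιne : Nonempty ι := by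
    by_contra hcon
    rw [not_nonempty_iff] at hcon
    simp at hp1
  obtain ⟨i0⟩ := hιne
  have htne : t.Nonempty := ⟨_, h.maps _ (hLam i0)⟩
  have ht : 1 ≤ t.card := Finset.card_pos.2 htne
  have htR : (0 : ℝ) < t.card := by exact_mod_cast ht
  -- popular colour
  have hpig : ∃ q ∈ t, 1 ≤ t.card * ∑ i ∈ Finset.univ.filter (fun i => c (Lam i) = q), p i := by
    by_contra hcon
    push Not at hcon
    have hsum : ∑ i, p i = ∑ q ∈ t, ∑ i ∈ Finset.univ.filter (fun i => c (Lam i) = q), p i :=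
      (Finset.sum_fiberwise_of_maps_to (fun i _ => h.maps _ (hLam i)) _).symm
    have h1 : ∑ q ∈ t, t.card * ∑ i ∈ Finset.univ.filter (fun i => c (Lam i) = q), p i
        < ∑ q ∈ t, (1 : ℝ) := Finset.sum_lt_sum_of_nonempty htne hcon
    rw [← Finset.mul_sum, ← hsum, hp1, mul_one, Finset.sum_const, nsmul_eq_mul, mul_one] at h1
    exact lt_irrefl _ h1
  obtain ⟨q, hq, hpop⟩ := hpig
  set I := Finset.univ.filter (fun i => c (Lam i) = q) with hI
  have hIne : I.Nonempty := by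
    by_contra hcon
    rw [Finset.not_nonempty_iff_eq_empty] at hcon
    rw [hcon, Finset.sum_empty, mul_zero] at hpop
    linarith
  obtain ⟨j, hj, hmax⟩ := Finset.exists_max_image I (fun i => ⟪Lam i, w i⟫) hIne
  have hlarge : ∀ i ∈ I, -ε ≤ ⟪Lam i, w j⟫ - ⟪Lam i, w i⟫ := by
    intro i hi
    have hc : c (Lam i) = c (Lam j) := by
      rw [(Finset.mem_filter.1 hi).2, (Finset.mem_filter.1 hj).2]
    have h1 := h.close _ (hLam i) _ (hLam j) hc (w j) (hO (hw j))
    rw [abs_le] at h1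
    have h3 := hmax i hi
    linarith [h1.1]
  have hz := hmgf (w j) (hO (hw j))
  have h1 : (∑ i ∈ I, p i) * Real.exp (θ * (-ε)) ≤ Real.exp (-(θ * b)) := by
    calc (∑ i ∈ I, p i) * Real.exp (θ * (-ε)) = ∑ i ∈ I, p i * Real.exp (θ * (-ε)) := by
          rw [Finset.sum_mul]
      _ ≤ ∑ i ∈ I, p i * Real.exp (θ * (⟪Lam i, w j⟫ - ⟪Lam i, w i⟫)) := by
          apply Finset.sum_le_sum
          intro i hi
          apply mul_le_mul_of_nonneg_left _ (hp0 i)
          exact Real.exp_le_exp.2 (mul_le_mul_of_nonneg_left (hlarge i hi) hθ)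
      _ ≤ ∑ i, p i * Real.exp (θ * (⟪Lam i, w j⟫ - ⟪Lam i, w i⟫)) := by
          apply Finset.sum_le_sum_of_subset_of_nonneg (Finset.subset_univ _)
          intro i _ _; exact mul_nonneg (hp0 i) (Real.exp_pos _).le
      _ ≤ _ := hz
  rw [Real.le_log_iff_exp_le htR]
  have h2 : Real.exp (θ * (-ε)) ≤ t.card * Real.exp (-(θ * b)) := by
    calc Real.exp (θ * (-ε)) = 1 * Real.exp (θ * (-ε)) := by ring
      _ ≤ (t.card * ∑ i ∈ I, p i) * Real.exp (θ * (-ε)) :=
          mul_le_mul_of_nonneg_right hpop (Real.exp_pos _).le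
      _ = t.card * ((∑ i ∈ I, p i) * Real.exp (θ * (-ε))) := by ring
      _ ≤ _ := mul_le_mul_of_nonneg_left h1 htR.le
  calc Real.exp (θ * (b - ε)) = Real.exp (θ * (-ε)) * Real.exp (θ * b) := by
        rw [← Real.exp_add]; congr 1; ring
    _ ≤ (t.card * Real.exp (-(θ * b))) * Real.exp (θ * b) :=
        mul_le_mul_of_nonneg_right h2 (Real.exp_pos _).le
    _ = t.card := by rw [mul_assoc, ← Real.exp_add]; simp

end Vale.Agent.P126
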