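import Vale.Agent.P126.Tree

open scoped Pointwise RealInnerProductSpace

namespace Vale.Agent.P126

variable {V : Type*} [NormedAddCommGroup V] [InnerProductSpace ℝ V]
variable {Om : Finset V} {U : Set V} {c : V → V} {t : Finset V}

lemma exp_add_exp_neg_le {y : ℝ} (hy : |y| ≤ 8) (τ : ℝ) :
    Real.exp (τ * y) + Real.exp (-(τ * y)) ≤ 2 * Real.exp (32 * τ ^ 2) := by
  have h1 := Real.cosh_le_exp_half_sq (τ * y)
  have h2 : Real.exp (τ * y) + Real.exp (-(τ * y)) = 2 * Real.cosh (τ * y) := by
    rw [Real.cosh_eq]; ring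
  rw [h2]
  have h3 : (τ * y) ^ 2 / 2 ≤ 32 * τ ^ 2 := by
    have : y ^ 2 ≤ 64 := by
      have := sq_abs y
      nlinarith [abs_nonneg y]
    nlinarith [sq_nonneg τ]
  have h4 := Real.exp_le_exp.2 h3
  linarith

lemma tree (h : LocalData Om U c t) (τ : ℝ) (ht : 1 ≤ t.card) (hU : U.Nonempty) :
    ∀ (D : ℕ) (O : Finset V), O ⊆ Om → (66 * t.card) ^ D ≤ O.card →
      ∃ (ι : Type) (_ : Fintype ι) (Lam : ι → V) (S : ι → ℝ) (w : ι → V),
        Fintype.card ι = 2 ^ D ∧ (∀ i, Lam i ∈ (D : ℝ) • U) ∧ (∀ i, w i ∈ O) ∧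
        (∀ i, (D : ℝ) / 8 ≤ ⟪Lam i, w i⟫ - S i) ∧
        (∀ x ∈ Om, ∑ i, Real.exp (τ * (⟪Lam i, x⟫ - S i)) ≤
          (2 * Real.exp (32 * τ ^ 2)) ^ D) := by
  intro D
  induction D with
  | zero =>
    intro O hO hcard
    rw [pow_zero] at hcard
    obtain ⟨x, hx⟩ := Finset.card_pos.1 hcard
    refine ⟨Unit, inferInstance, fun _ => 0, fun _ => 0, fun _ => x, by simp, ?_, fun _ => hx, ?_, ?_⟩
    · intro _
      obtain ⟨u, hu⟩ := hU
      exact ⟨u, hu, by simp⟩
    · intro _; simp
    · intro y hy; simp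
  | succ D ih =>
    intro O hO hcard
    have h66 : 66 ≤ 66 * t.card := by omega
    have h2 : 2 ≤ O.card := by
      calc 2 ≤ 66 * t.card := by omega
        _ ≤ (66 * t.card) ^ (D + 1) := Nat.le_self_pow (Nat.succ_ne_zero D) _
        _ ≤ O.card := hcard
    obtain ⟨f, hf, s, hA, hB⟩ := splitting h O hO h2
    set A := O.filter (fun x => ⟪f, x⟫ ≤ s) with hAdef
    set B := O.filter (fun x => s + 1 / 4 ≤ ⟪f, x⟫) with hBdef
    have hpos : 0 < 66 * t.card := by omega
    have hA' : (66 * t.card) ^ D ≤ A.card := by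
      rw [pow_succ] at hcard
      have : (66 * t.card) ^ D * (66 * t.card) ≤ A.card * (66 * t.card) := by
        calc _ ≤ O.card := hcard
          _ ≤ 66 * t.card * A.card := hA
          _ = _ := by ring
      exact Nat.le_of_mul_le_mul_right this hpos
    have hB' : (66 * t.card) ^ D ≤ B.card := by
      rw [pow_succ] at hcard
      have : (66 * t.card) ^ D * (66 * t.card) ≤ B.card * (66 * t.card) := by
        calc _ ≤ O.card := hcard
          _ ≤ 66 * t.card * B.card := hB
          _ = _ := by ring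
      exact Nat.le_of_mul_le_mul_right this hpos
    have hAO : A ⊆ O := Finset.filter_subset _ _
    have hBO : B ⊆ O := Finset.filter_subset _ _
    obtain ⟨ιa, ia, La, Sa, wa, ca, ma, oa, da, ea⟩ := ih A (hAO.trans hO) hA'
    obtain ⟨ιb, ib, Lb, Sb, wb, cb, mb, ob, db, eb⟩ := ih B (hBO.trans hO) hB'
    have hposA : 0 < A.card := lt_of_lt_of_le (pow_pos hpos D) hA'
    have hposB : 0 < B.card := lt_of_lt_of_le (pow_pos hpos D) hB'
    obtain ⟨xa, hxa⟩ := Finset.card_pos.1 hposA
    obtain ⟨xb, hxb⟩ := Finset.card_pos.1 hposB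
    have hs1 : -4 ≤ s := by
      have h1 := (Finset.mem_filter.1 hxa).2
      have h2 := h.bdd f hf xa (hO (hAO hxa))
      rw [abs_le] at h2
      linarith [h2.1]
    have hs2 : s + 1 / 4 ≤ 4 := by
      have h1 := (Finset.mem_filter.1 hxb).2
      have h2 := h.bdd f hf xb (hO (hBO hxb))
      rw [abs_le] at h2
      linarith [h2.2]
    have hscale : ∀ {v u : V}, v ∈ (D : ℝ) • U → u ∈ U → v + u ∈ ((D + 1 : ℕ) : ℝ) • U := by
      intro v u hv hu
      rw [Nat.cast_succ, h.convex.add_smul (Nat.cast_nonneg D) zero_le_one, one_smul]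
      exact Set.add_mem_add hv hu
    refine ⟨ιa ⊕ ιb, inferInstance, Sum.elim (fun i => La i + (-f)) (fun i => Lb i + f),
      Sum.elim (fun i => Sa i - (s + 1 / 8)) (fun i => Sb i + (s + 1 / 8)), Sum.elim wa wb,
      ?_, ?_, ?_, ?_, ?_⟩
    · rw [Fintype.card_sum, ca, cb, pow_succ]; ring
    · rintro (i | i)
      · exact hscale (ma i) (h.symm f hf)
      · exact hscale (mb i) hf
    · rintro (i | i)
      · exact hAO (oa i)
      · exact hBO (ob i)
    · rintro (i | i)
      · have h1 := da i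
        have h2 := (Finset.mem_filter.1 (oa i)).2
        simp only [Sum.elim_inl, inner_add_left, inner_neg_left]
        push_cast
        linarith
      · have h1 := db i
        have h2 := (Finset.mem_filter.1 (ob i)).2
        simp only [Sum.elim_inr, inner_add_left]
        push_cast
        linarith
    · intro x hx
      rw [Fintype.sum_sum_type]
      simp only [Sum.elim_inl, Sum.elim_inr, inner_add_left, inner_neg_left]
      have e1 : ∀ i, Real.exp (τ * (⟪La i, x⟫ + -⟪f, x⟫ - (Sa i - (s + 1 / 8))))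
          = Real.exp (-(τ * (⟪f, x⟫ - (s + 1 / 8)))) * Real.exp (τ * (⟪La i, x⟫ - Sa i)) := by
        intro i; rw [← Real.exp_add]; ring_nf
      have e2 : ∀ i, Real.exp (τ * (⟪Lb i, x⟫ + ⟪f, x⟫ - (Sb i + (s + 1 / 8))))
          = Real.exp (τ * (⟪f, x⟫ - (s + 1 / 8))) * Real.exp (τ * (⟪Lb i, x⟫ - Sb i)) := by
        intro i; rw [← Real.exp_add]; ring_nf
      rw [Finset.sum_congr rfl (fun i _ => e1 i), Finset.sum_congr rfl (fun i _ => e2 i),
        ← Finset.mul_sum, ← Finset.mul_sum]
      have hb := h.bdd f hf x hx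
      rw [abs_le] at hb
      have hy : |⟪f, x⟫ - (s + 1 / 8)| ≤ 8 := by
        rw [abs_le]; constructor <;> linarith [hb.1, hb.2]
      have hexp := exp_add_exp_neg_le hy τ
      have h1 := ea x hx
      have h2 := eb x hx
      calc _ ≤ Real.exp (-(τ * (⟪f, x⟫ - (s + 1 / 8)))) * (2 * Real.exp (32 * τ ^ 2)) ^ D
            + Real.exp (τ * (⟪f, x⟫ - (s + 1 / 8))) * (2 * Real.exp (32 * τ ^ 2)) ^ D := by
              gcongr
        _ = (Real.exp (τ * (⟪f, x⟫ - (s + 1 / 8))) + Real.exp (-(τ * (⟪f, x⟫ - (s + 1 / 8)))))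
            * (2 * Real.exp (32 * τ ^ 2)) ^ D := by ring
        _ ≤ (2 * Real.exp (32 * τ ^ 2)) * (2 * Real.exp (32 * τ ^ 2)) ^ D := by gcongr
        _ = _ := by rw [pow_succ]; ring

/-- A tree of depth `D` forces at least `exp (D / 2 ^ 15)` colours. -/
lemma depth_bound (h : LocalData Om U c t) (ht : 1 ≤ t.card) (hU : U.Nonempty) (D : ℕ)
    (hD : (66 * t.card) ^ D ≤ Om.card) : (D : ℝ) ≤ 2 ^ 15 * Real.log t.card := by
  classical
  rcases Nat.eq_zero_or_pos D with rfl | hDpos
  · have : (0 : ℝ) ≤ Real.log t.card := Real.log_natCast_nonneg _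
    simpa using this
  obtain ⟨ι, _, Lam, S, w, hcard, hmem, hw, hdev, hexp⟩ :=
    tree h (1 / 1024) ht hU D Om (Finset.Subset.refl _) hD
  have hDR : (0 : ℝ) < D := by exact_mod_cast hDpos
  -- normalise
  have hlam : ∀ i, ∃ u ∈ U, Lam i = (D : ℝ) • u := by
    intro i
    obtain ⟨u, hu, hu'⟩ := hmem i
    exact ⟨u, hu, hu'.symm⟩
  choose u huU hu using hlam
  -- popular colour
  have hne : (Finset.univ : Finset ι).Nonempty := by
    rw [← Finset.card_pos, Finset.card_univ, hcard]; positivity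
  have hmaps : ∀ i ∈ (Finset.univ : Finset ι), c (u i) ∈ t := fun i _ => h.maps _ (huU i)
  have htne : t.Nonempty := Finset.card_pos.1 ht
  have hpig : ∃ q ∈ t, (Finset.univ : Finset ι).card ≤
      t.card * ((Finset.univ : Finset ι).filter (fun i => c (u i) = q)).card := by
    by_contra hcon
    push Not at hcon
    have hsum : (Finset.univ : Finset ι).card =
        ∑ q ∈ t, ((Finset.univ : Finset ι).filter (fun i => c (u i) = q)).card :=
      Finset.card_eq_sum_card_fiberwise hmaps
    have h1 : ∑ q ∈ t, t.card * ((Finset.univ : Finset ι).filter (fun i => c (u i) = q)).card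
        < ∑ q ∈ t, (Finset.univ : Finset ι).card := Finset.sum_lt_sum_of_nonempty htne hcon
    rw [← Finset.mul_sum, ← hsum, Finset.sum_const, smul_eq_mul] at h1
    exact lt_irrefl _ h1
  obtain ⟨q, hq, hpop⟩ := hpig
  set I := (Finset.univ : Finset ι).filter (fun i => c (u i) = q) with hI
  have hIne : I.Nonempty := by
    rw [← Finset.card_pos]
    by_contra h0
    have h0' : I.card = 0 := by omega
    rw [h0', mul_zero] at hpop
    have := Finset.card_pos.2 hne
    omega
  obtain ⟨j, hj, hmax⟩ := Finset.exists_max_image I S hIne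
  have hlarge : ∀ i ∈ I, (D : ℝ) / 16 ≤ ⟪Lam i, w j⟫ - S i := by
    intro i hi
    have hc : c (u i) = c (u j) := by
      rw [(Finset.mem_filter.1 hi).2, (Finset.mem_filter.1 hj).2]
    have h1 := h.close _ (huU i) _ (huU j) hc (w j) (hw j)
    rw [abs_le] at h1
    have h2 := hdev j
    have h3 := hmax i hi
    rw [hu j, inner_smul_left] at h2
    rw [hu i, inner_smul_left]
    simp only [conj_trivial] at h2 ⊢
    have h4 : (D : ℝ) * (⟪u i, w j⟫ - ⟪u j, w j⟫) ≥ (D : ℝ) * (-(1 / 16)) :=
      mul_le_mul_of_nonneg_left h1.1 hDR.le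
    nlinarith
  have hsum : (I.card : ℝ) * Real.exp (1 / 1024 * (D / 16)) ≤
      (2 * Real.exp (32 * (1 / 1024) ^ 2)) ^ D := by
    calc (I.card : ℝ) * Real.exp (1 / 1024 * (D / 16))
        = ∑ i ∈ I, Real.exp (1 / 1024 * (D / 16)) := by rw [Finset.sum_const, nsmul_eq_mul]
      _ ≤ ∑ i ∈ I, Real.exp (1 / 1024 * (⟪Lam i, w j⟫ - S i)) := by
          apply Finset.sum_le_sum
          intro i hi
          apply Real.exp_le_exp.2
          have := hlarge i hi
          linarith
      _ ≤ ∑ i, Real.exp (1 / 1024 * (⟪Lam i, w j⟫ - S i)) := by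
          apply Finset.sum_le_sum_of_subset_of_nonneg (Finset.subset_univ _)
          intro i _ _; exact (Real.exp_pos _).le
      _ ≤ _ := hexp (w j) (hw j)
  rw [Finset.card_univ, hcard] at hpop
  have hpop' : (2 : ℝ) ^ D ≤ t.card * I.card := by exact_mod_cast hpop
  have htpos : (0 : ℝ) < t.card := by exact_mod_cast ht
  have key : Real.exp ((D : ℝ) / 2 ^ 15) ≤ t.card := by
    have h1 : (2 : ℝ) ^ D * Real.exp (1 / 1024 * (D / 16)) ≤
        t.card * ((2 : ℝ) ^ D * Real.exp (32 * (1 / 1024) ^ 2 * D)) := by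
      calc (2 : ℝ) ^ D * Real.exp (1 / 1024 * (D / 16))
          ≤ t.card * I.card * Real.exp (1 / 1024 * (D / 16)) := by gcongr
        _ = t.card * (I.card * Real.exp (1 / 1024 * (D / 16))) := by ring
        _ ≤ t.card * (2 * Real.exp (32 * (1 / 1024) ^ 2)) ^ D := by gcongr
        _ = t.card * ((2 : ℝ) ^ D * Real.exp (32 * (1 / 1024) ^ 2 * D)) := by
            rw [mul_pow, ← Real.exp_nat_mul]; ring_nf
    have h2 : (2 : ℝ) ^ D * Real.exp (1 / 1024 * (D / 16)) ≤
        (2 : ℝ) ^ D * (t.card * Real.exp (32 * (1 / 1024) ^ 2 * D)) := by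
      calc _ ≤ _ := h1
        _ = _ := by ring
    have h3 := le_of_mul_le_mul_left h2 (by positivity)
    have h4 : Real.exp (1 / 1024 * (D / 16)) =
        Real.exp ((D : ℝ) / 2 ^ 15) * Real.exp (32 * (1 / 1024) ^ 2 * D) := by
      rw [← Real.exp_add]; congr 1; ring
    rw [h4] at h3
    exact le_of_mul_le_mul_right h3 (Real.exp_pos _)
  have := (Real.le_log_iff_exp_le htpos).2 key
  rw [div_le_iff₀ (by positivity)] at this
  linarith

/-- Local estimate. -/
lemma local_bound (h : LocalData Om U c t) (hU : U.Nonempty) (hOm : Om.Nonempty) :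
    Real.log Om.card ≤ 2 ^ 19 * (Real.log t.card) ^ 2 := by
  classical
  obtain ⟨u, hu⟩ := hU
  have ht : 1 ≤ t.card := Finset.card_pos.2 ⟨c u, h.maps u hu⟩
  have hOmc : 1 ≤ Om.card := Finset.card_pos.2 hOm
  rcases Nat.lt_or_ge t.card 2 with h1 | h2
  · -- one colour
    have ht1 : t.card = 1 := by omega
    have hle : Om.card ≤ 1 := by
      rw [Finset.card_le_one]
      intro x hx y hy
      by_contra hxy
      obtain ⟨f, hf, hf1⟩ := h.sep x hx y hy hxy
      have hcc : c f = c (-f) := by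
        rw [Finset.card_eq_one] at ht1
        obtain ⟨a, ha⟩ := ht1
        have e1 := h.maps f hf
        have e2 := h.maps (-f) (h.symm f hf)
        rw [ha, Finset.mem_singleton] at e1 e2
        rw [e1, e2]
      have k1 := h.close f hf (-f) (h.symm f hf) hcc x hx
      have k2 := h.close f hf (-f) (h.symm f hf) hcc y hy
      rw [inner_neg_left, abs_le] at k1 k2
      linarith [k1.1, k1.2, k2.1, k2.2]
    have : Om.card = 1 := le_antisymm hle hOmc
    rw [this, ht1]; simp
  · have hb : 1 < 66 * t.card := by omega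
    set D := Nat.log (66 * t.card) Om.card with hD
    have hpow : (66 * t.card) ^ D ≤ Om.card := Nat.pow_log_le_self _ (by omega)
    have hlt : Om.card < (66 * t.card) ^ (D + 1) := Nat.lt_pow_succ_log_self hb _
    have hdb := depth_bound h ht ⟨u, hu⟩ D hpow
    have hR : (2 : ℝ) ≤ t.card := by exact_mod_cast h2
    have hRpos : (0 : ℝ) < t.card := by linarith
    have hl2 : Real.log 2 ≤ Real.log t.card := Real.log_le_log (by norm_num) hR
    have hl2' : (1 : ℝ) / 2 ≤ Real.log 2 := by
      have := Real.log_two_gt_d9; linarith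
    have hlog66 : Real.log (66 * t.card) ≤ 8 * Real.log t.card := by
      rw [Real.log_mul (by norm_num) hRpos.ne']
      have : Real.log 66 ≤ 7 * Real.log 2 := by
        rw [← Real.log_rpow (by norm_num)]
        apply Real.log_le_log (by norm_num)
        norm_num
      linarith
    have hOmlog : Real.log Om.card ≤ (D + 1) * Real.log (66 * t.card) := by
      have h5 : (Om.card : ℝ) ≤ (66 * (t.card : ℝ)) ^ (D + 1) := by
        exact_mod_cast hlt.le
      have h6 := Real.log_le_log (by exact_mod_cast hOmc) h5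
      rw [Real.log_pow] at h6
      push_cast at h6
      exact h6
    set r := Real.log t.card with hr
    have hr2 : 1 / 2 ≤ r := by linarith
    calc Real.log Om.card ≤ (D + 1) * Real.log (66 * t.card) := hOmlog
      _ ≤ (2 ^ 15 * r + 1) * (8 * r) := by
          apply mul_le_mul _ hlog66 (Real.log_nonneg (by nlinarith)) (by positivity)
          linarith
      _ ≤ 2 ^ 19 * r ^ 2 := by nlinarith

end Vale.Agent.P126
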