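import Vale.Agent.P126.Defs
import Vale.Agent.P126.Cover
import Vale.Agent.P126.Local

open scoped Pointwise RealInnerProductSpace

namespace Vale.Agent.P126

variable {n : ℕ}

lemma IsSymBody.zero_mem_interior {K : Set (EuclideanSpace ℝ (Fin n))} (hK : IsSymBody K) :
    (0 : EuclideanSpace ℝ (Fin n)) ∈ interior K := by
  obtain ⟨x, hx⟩ := hK.nonempty_interior
  have hneg : -x ∈ interior K := by
    have hKeq : -K = K := by
      ext y
      constructor
      · intro hy; have := hK.symm _ hy; simpa using this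
      · intro hy; exact hK.symm _ hy
    have h1 : -x ∈ -interior K := by simpa using hx
    have h2 : -interior K = interior (-K) := by
      exact ((Homeomorph.neg (EuclideanSpace ℝ (Fin n))).image_interior K |> fun h => by
        simpa [Set.image_neg_eq_neg] using h)
    rw [h2, hKeq] at h1
    exact h1
  have := hK.convex.interior hx hneg (by norm_num : (0:ℝ) ≤ 1/2) (by norm_num : (0:ℝ) ≤ 1/2)
    (by norm_num)
  simpa using this

lemma IsSymBody.zero_mem {K : Set (EuclideanSpace ℝ (Fin n))} (hK : IsSymBody K) :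
    (0 : EuclideanSpace ℝ (Fin n)) ∈ K := interior_subset hK.zero_mem_interior

lemma convex_polarBody (K : Set (EuclideanSpace ℝ (Fin n))) : Convex ℝ (polarBody K) := by
  intro y hy z hz a b ha hb hab x hx
  rw [inner_add_right, inner_smul_right, inner_smul_right]
  have h1 := hy x hx
  have h2 := hz x hx
  nlinarith

lemma isClosed_polarBody (K : Set (EuclideanSpace ℝ (Fin n))) : IsClosed (polarBody K) := by
  have : polarBody K = ⋂ x ∈ K, {y | ⟪x, y⟫ ≤ (1 : ℝ)} := by
    ext y; simp [polarBody]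
  rw [this]
  exact isClosed_biInter fun x _ => isClosed_le (by fun_prop) continuous_const

lemma zero_mem_polarBody (K : Set (EuclideanSpace ℝ (Fin n))) :
    (0 : EuclideanSpace ℝ (Fin n)) ∈ polarBody K := by
  intro x _; simp

lemma neg_mem_polarBody {K : Set (EuclideanSpace ℝ (Fin n))} (hK : ∀ x ∈ K, -x ∈ K) :
    ∀ y ∈ polarBody K, -y ∈ polarBody K := by
  intro y hy x hx
  have := hy (-x) (hK x hx)
  simpa using this

/-- Separation: a point outside a closed convex set containing `0` is detected by the polar. -/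
lemma exists_polar_gt {K : Set (EuclideanSpace ℝ (Fin n))} (hc : Convex ℝ K) (hcl : IsClosed K)
    (h0 : (0 : EuclideanSpace ℝ (Fin n)) ∈ K) {x : EuclideanSpace ℝ (Fin n)} (hx : x ∉ K) :
    ∃ f ∈ polarBody K, 1 < ⟪f, x⟫ := by
  obtain ⟨φ, u, hφ, hu⟩ := geometric_hahn_banach_closed_point hc hcl hx
  have hu0 : 0 < u := by have := hφ 0 h0; simpa using this
  set g := (InnerProductSpace.toDual ℝ (EuclideanSpace ℝ (Fin n))).symm φ with hg
  have hgi : ∀ y, ⟪g, y⟫ = φ y := fun y => InnerProductSpace.toDual_symm_apply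
  refine ⟨u⁻¹ • g, ?_, ?_⟩
  · intro y hy
    rw [inner_smul_right, real_inner_comm, hgi]
    have := hφ y hy
    rw [inv_mul_le_iff₀ hu0]; linarith
  · rw [inner_smul_left, hgi]
    simp only [conj_trivial]
    rw [lt_inv_mul_iff₀ hu0]; linarith

lemma polarBody_polarBody {K : Set (EuclideanSpace ℝ (Fin n))} (hc : Convex ℝ K)
    (hcl : IsClosed K) (h0 : (0 : EuclideanSpace ℝ (Fin n)) ∈ K) :
    polarBody (polarBody K) = K := by
  ext x
  constructor
  · intro hx
    by_contra hcon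
    obtain ⟨f, hf, hf1⟩ := exists_polar_gt hc hcl h0 hcon
    have := hx f hf
    linarith
  · intro hx f hf
    have := hf x hx
    rwa [real_inner_comm]

lemma polarBody_smul {K : Set (EuclideanSpace ℝ (Fin n))} {a : ℝ} (ha : 0 < a) :
    polarBody (a • K) = a⁻¹ • polarBody K := by
  ext y
  constructor
  · intro hy
    refine ⟨a • y, ?_, by simp only; rw [smul_smul, inv_mul_cancel₀ ha.ne', one_smul]⟩
    intro x hx
    have := hy (a • x) ⟨x, hx, rfl⟩
    rw [inner_smul_left] at this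
    rw [inner_smul_right]
    simpa using this
  · rintro ⟨z, hz, rfl⟩ _ ⟨x, hx, rfl⟩
    simp only
    rw [inner_smul_left, inner_smul_right]
    simp only [conj_trivial]
    rw [← mul_assoc, mul_inv_cancel₀ ha.ne', one_mul]
    exact hz x hx

lemma IsSymBody.smul {K : Set (EuclideanSpace ℝ (Fin n))} (hK : IsSymBody K) {a : ℝ} (ha : 0 < a) :
    IsSymBody (a • K) := by
  refine ⟨hK.convex.smul a, hK.compact.smul a, ?_, ?_⟩
  · rw [interior_smul₀ ha.ne']
    exact hK.nonempty_interior.smul_set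
  · rintro _ ⟨x, hx, rfl⟩
    exact ⟨-x, hK.symm x hx, by simp⟩

lemma IsSymBody.polar {K : Set (EuclideanSpace ℝ (Fin n))} (hK : IsSymBody K) :
    IsSymBody (polarBody K) := by
  refine ⟨convex_polarBody K, ?_, ?_, neg_mem_polarBody hK.symm⟩
  · rw [Metric.isCompact_iff_isClosed_bounded]
    refine ⟨isClosed_polarBody K, ?_⟩
    obtain ⟨ε, hε, hball⟩ := Metric.mem_nhds_iff.1 (mem_interior_iff_mem_nhds.1 hK.zero_mem_interior)
    rw [isBounded_iff_forall_norm_le]
    refine ⟨2 / ε, fun y hy => ?_⟩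
    rcases eq_or_ne y 0 with rfl | hy0
    · simp; positivity
    · have hny : 0 < ‖y‖ := norm_pos_iff.2 hy0
      have hmem : (ε / 2 / ‖y‖) • y ∈ K := by
        apply hball
        rw [Metric.mem_ball, dist_zero_right, norm_smul, Real.norm_of_nonneg (by positivity),
          div_mul_cancel₀ _ hny.ne']
        linarith
      have := hy _ hmem
      rw [inner_smul_left, real_inner_self_eq_norm_sq] at this
      simp only [conj_trivial] at this
      rw [le_div_iff₀ hε]
      have h2 : ε / 2 / ‖y‖ * ‖y‖ ^ 2 = ε / 2 * ‖y‖ := by field_simp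
      rw [h2] at this
      linarith
  · obtain ⟨R, hR⟩ := isBounded_iff_forall_norm_le.1 hK.compact.isBounded
    have hR0 : 0 ≤ R := le_trans (norm_nonneg _) (hR 0 hK.zero_mem)
    refine ⟨0, mem_interior_iff_mem_nhds.2 (Metric.mem_nhds_iff.2 ⟨1 / (R + 1), by positivity, ?_⟩)⟩
    intro y hy x hx
    rw [Metric.mem_ball, dist_zero_right] at hy
    calc ⟪x, y⟫ ≤ ‖x‖ * ‖y‖ := real_inner_le_norm x y
      _ ≤ (R + 1) * (1 / (R + 1)) := by
          apply mul_le_mul ((hR x hx).trans (by linarith)) hy.le (norm_nonneg _) (by positivity)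
      _ = 1 := by field_simp

lemma coverNum_le {A B : Set (EuclideanSpace ℝ (Fin n))} {m : ℕ} (h : Cov A B m) :
    coverNum A B ≤ m := by
  obtain ⟨t, ht, hc⟩ := h
  exact (Nat.sInf_le ⟨t, rfl, hc⟩ : coverNum A B ≤ t.card).trans ht

lemma cov_coverNum {A B : Set (EuclideanSpace ℝ (Fin n))} {m : ℕ} (h : Cov A B m) :
    Cov A B (coverNum A B) := by
  obtain ⟨t, ht, hc⟩ := h
  have hne : {m : ℕ | ∃ t : Finset (EuclideanSpace ℝ (Fin n)), t.card = m ∧
      A ⊆ ⋃ x ∈ t, (x +ᵥ B)}.Nonempty := ⟨t.card, t, rfl, hc⟩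
  obtain ⟨t', ht', hc'⟩ := Nat.sInf_mem hne
  exact ⟨t', ht'.le, hc'⟩

lemma Cov.pos {A B : Set (EuclideanSpace ℝ (Fin n))} {m : ℕ} (h : Cov A B m) (hA : A.Nonempty) :
    1 ≤ m := by
  obtain ⟨t, ht, hc⟩ := h.exists_mem
  obtain ⟨a, ha⟩ := hA
  obtain ⟨x, hx, _⟩ := hc a ha
  exact le_trans (Finset.card_pos.2 ⟨x, hx⟩) ht

/-- The localised bodies are covered by few translates of `T`. -/
lemma local_cov {K T : Set (EuclideanSpace ℝ (Fin n))} (hK : IsSymBody K) (hT : IsSymBody T)
    {r : ℝ} (hr : 0 < r) {R : ℕ}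
    (hR : Cov (polarBody T) ((1 / 256 : ℝ) • polarBody T + (1 / (128 * r)) • polarBody K) R) :
    ∃ m : ℕ, 1 ≤ m ∧ Cov ((2 * r) • K ∩ (4 : ℝ) • T) T m ∧
      Real.log m ≤ 2 ^ 19 * (Real.log R) ^ 2 := by
  classical
  set A := (2 * r) • K ∩ (4 : ℝ) • T with hA
  obtain ⟨t, ht, hc⟩ := hR.exists_mem
  have hc' : ∀ f : EuclideanSpace ℝ (Fin n), ∃ x, f ∈ polarBody T → x ∈ t ∧
      f - x ∈ (1 / 256 : ℝ) • polarBody T + (1 / (128 * r)) • polarBody K := by
    intro f
    by_cases hf : f ∈ polarBody T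
    · obtain ⟨x, hx, hfx⟩ := hc f hf
      exact ⟨x, fun _ => ⟨hx, hfx⟩⟩
    · exact ⟨0, fun h => absurd h hf⟩
  choose c hc using hc'
  have hbd : ∀ f ∈ polarBody T, ∀ x ∈ A, |⟪f, x⟫| ≤ 4 := by
    rintro f hf x ⟨_, y, hy, rfl⟩
    simp only
    rw [inner_smul_right]
    have h1 := hf y hy
    have h2 := hf (-y) (hT.symm y hy)
    rw [real_inner_comm] at h1 h2
    rw [inner_neg_right] at h2
    rw [abs_le]; constructor <;> linarith
  have hbdW : ∀ f ∈ polarBody K, ∀ x ∈ A, |⟪f, x⟫| ≤ 2 * r := by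
    rintro f hf x ⟨⟨y, hy, rfl⟩, _⟩
    simp only
    rw [inner_smul_right]
    have h1 := hf y hy
    have h2 := hf (-y) (hK.symm y hy)
    rw [real_inner_comm] at h1 h2
    rw [inner_neg_right] at h2
    rw [abs_le]; constructor <;> nlinarith
  have hsmall : ∀ p ∈ (1 / 256 : ℝ) • polarBody T + (1 / (128 * r)) • polarBody K, ∀ x ∈ A,
      |⟪p, x⟫| ≤ 1 / 32 := by
    rintro _ ⟨_, ⟨u, hu, rfl⟩, _, ⟨w, hw, rfl⟩, rfl⟩ x hx
    have h1 := hbd u hu x hx
    have h2 := hbdW w hw x hx
    simp only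
    rw [inner_add_left, inner_smul_left, inner_smul_left]
    simp only [conj_trivial]
    rw [abs_le] at h1 h2
    have h3 : 1 / (128 * r) * ⟪w, x⟫ ≤ 1 / 64 := by
      calc 1 / (128 * r) * ⟪w, x⟫ ≤ 1 / (128 * r) * (2 * r) := by
            apply mul_le_mul_of_nonneg_left h2.2 (by positivity)
        _ = 1 / 64 := by field_simp; norm_num
    have h4 : -(1 / 64) ≤ 1 / (128 * r) * ⟪w, x⟫ := by
      calc -(1 / 64) = 1 / (128 * r) * (-(2 * r)) := by field_simp; norm_num
        _ ≤ 1 / (128 * r) * ⟪w, x⟫ := by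
            apply mul_le_mul_of_nonneg_left h2.1 (by positivity)
    rw [abs_le]; constructor <;> linarith [h1.1, h1.2]
  have hLD : ∀ O : Finset (EuclideanSpace ℝ (Fin n)), (∀ x ∈ O, x ∈ A) → Sep O T →
      LocalData O (polarBody T) c t := by
    intro O hO hsep
    refine ⟨convex_polarBody T, neg_mem_polarBody hT.symm, fun f hf x hx => hbd f hf x (hO x hx),
      ?_, fun f hf => (hc f hf).1, ?_⟩
    · intro x hx y hy hxy
      obtain ⟨f, hf, hf1⟩ := exists_polar_gt hT.convex hT.compact.isClosed hT.zero_mem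
        (hsep x hx y hy hxy)
      refine ⟨f, hf, ?_⟩
      rwa [inner_sub_right] at hf1
    · intro f hf g hg hfg x hx
      have h1 := hsmall _ (hc f hf).2 x (hO x hx)
      have h2 := hsmall _ (hc g hg).2 x (hO x hx)
      rw [inner_sub_left] at h1 h2
      rw [← hfg] at h2
      rw [abs_le] at h1 h2 ⊢
      constructor <;> linarith [h1.1, h1.2, h2.1, h2.2]
  have hUne : (polarBody T).Nonempty := ⟨0, zero_mem_polarBody T⟩
  have htpos : 1 ≤ t.card := Finset.card_pos.2 ⟨c 0, (hc 0 (zero_mem_polarBody T)).1⟩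
  have hlogt : Real.log t.card ≤ Real.log R :=
    Real.log_le_log (by exact_mod_cast htpos) (by exact_mod_cast ht)
  have hlogt0 : 0 ≤ Real.log t.card := Real.log_natCast_nonneg _
  have hlogb : ∀ O : Finset (EuclideanSpace ℝ (Fin n)), (∀ x ∈ O, x ∈ A) → Sep O T →
      Real.log O.card ≤ 2 ^ 19 * (Real.log R) ^ 2 := by
    intro O hO hsep
    rcases O.eq_empty_or_nonempty with rfl | hne
    · simp; positivity
    · refine (local_bound (hLD O hO hsep) hUne hne).trans ?_
      have : Real.log t.card ^ 2 ≤ Real.log R ^ 2 := pow_le_pow_left₀ hlogt0 hlogt 2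
      linarith
  have hbound : ∀ O : Finset (EuclideanSpace ℝ (Fin n)), (∀ x ∈ O, x ∈ A) → Sep O T →
      O.card ≤ ⌊Real.exp (2 ^ 19 * (Real.log R) ^ 2)⌋₊ := by
    intro O hO hsep
    rcases O.eq_empty_or_nonempty with rfl | hne
    · simp
    · apply Nat.le_floor
      have hpos : (0 : ℝ) < O.card := by exact_mod_cast Finset.card_pos.2 hne
      rw [← Real.log_le_iff_le_exp hpos]
      exact hlogb O hO hsep
  obtain ⟨O, hO, hsep, hcov⟩ := exists_sep_cov hT.zero_mem hT.symm hbound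
  refine ⟨O.card, ?_, hcov, hlogb O hO hsep⟩
  apply hcov.pos
  exact ⟨0, ⟨0, hK.zero_mem, by simp⟩, ⟨0, hT.zero_mem, by simp⟩⟩

end Vale.Agent.P126
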