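import Mathlib

open scoped Pointwise RealInnerProductSpace

namespace Vale.Agent.P126

variable {V : Type*} [NormedAddCommGroup V] [InnerProductSpace ℝ V]

/-- Data for the local estimate: `Om` a finite set of points, `U` a symmetric convex set of
functionals bounded by `4` on `Om`, separating the points of `Om`, and a colouring `c` of `U` by the
finite set `t` such that equal colours are `1/16`-close on `Om`. -/
structure LocalData (Om : Finset V) (U : Set V) (c : V → V) (t : Finset V) : Prop where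
  convex : Convex ℝ U
  symm : ∀ f ∈ U, -f ∈ U
  bdd : ∀ f ∈ U, ∀ x ∈ Om, |⟪f, x⟫| ≤ 4
  sep : ∀ x ∈ Om, ∀ y ∈ Om, x ≠ y → ∃ f ∈ U, 1 < ⟪f, x⟫ - ⟪f, y⟫
  maps : ∀ f ∈ U, c f ∈ t
  close : ∀ f ∈ U, ∀ g ∈ U, c f = c g → ∀ x ∈ Om, |⟪f, x⟫ - ⟪g, x⟫| ≤ 1 / 16

variable {Om : Finset V} {U : Set V} {c : V → V} {t : Finset V}

lemma splitting (h : LocalData Om U c t) (O : Finset V) (hO : O ⊆ Om) (h2 : 2 ≤ O.card) :
    ∃ f ∈ U, ∃ s : ℝ,
      O.card ≤ 66 * t.card * (O.filter (fun x => ⟪f, x⟫ ≤ s)).card ∧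
      O.card ≤ 66 * t.card * (O.filter (fun x => s + 1 / 4 ≤ ⟪f, x⟫)).card := by
  classical
  -- representatives of colours
  have hrep : ∀ q : V, ∃ g : V, (∃ f ∈ U, c f = q) → g ∈ U ∧ c g = q := by
    intro q
    by_cases hq : ∃ f ∈ U, c f = q
    · obtain ⟨f, hf, hfq⟩ := hq
      exact ⟨f, fun _ => ⟨hf, hfq⟩⟩
    · exact ⟨0, fun h' => absurd h' hq⟩
  choose rep hrep using hrep
  -- for each pair a separating functional
  have hsep : ∀ p : V × V, ∃ f : V, p ∈ O.offDiag → f ∈ U ∧ 1 < ⟪f, p.1⟫ - ⟪f, p.2⟫ := by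
    intro p
    by_cases hp : p ∈ O.offDiag
    · rw [Finset.mem_offDiag] at hp
      obtain ⟨f, hf, hf1⟩ := h.sep p.1 (hO hp.1) p.2 (hO hp.2.1) hp.2.2
      exact ⟨f, fun _ => ⟨hf, hf1⟩⟩
    · exact ⟨0, fun h' => absurd h' hp⟩
  choose F hF using hsep
  let φ : V × V → V × ℤ := fun p => (c (F p), ⌊4 * ⟪rep (c (F p)), p.2⟫⌋)
  let T : Finset (V × ℤ) := t ×ˢ Finset.Icc (-16) 16
  have hmaps : ∀ p ∈ O.offDiag, φ p ∈ T := by
    intro p hp
    have hFp := hF p hp
    have hr := hrep (c (F p)) ⟨F p, hFp.1, rfl⟩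
    have hp' := Finset.mem_offDiag.1 hp
    have hb := h.bdd _ hr.1 p.2 (hO hp'.2.1)
    rw [abs_le] at hb
    simp only [φ, T, Finset.mem_product, Finset.mem_Icc]
    refine ⟨h.maps _ hFp.1, ?_, ?_⟩
    · rw [Int.le_floor]; push_cast; linarith [hb.1]
    · have : (⌊4 * ⟪rep (c (F p)), p.2⟫⌋ : ℝ) ≤ 16 :=
        (Int.floor_le _).trans (by linarith [hb.2])
      exact_mod_cast this
  have hcardT : T.card = 33 * t.card := by
    simp only [T, Finset.card_product]
    have : (Finset.Icc (-16 : ℤ) 16).card = 33 := by decide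
    rw [this]; ring
  -- pigeonhole
  have hne : O.offDiag.Nonempty := by
    rw [← Finset.card_pos, Finset.offDiag_card]
    have : O.card < O.card * O.card := by nlinarith
    omega
  obtain ⟨p0, hp0⟩ := hne
  have hTne : T.Nonempty := ⟨φ p0, hmaps p0 hp0⟩
  have hpig : ∃ q ∈ T, O.offDiag.card ≤ T.card * (O.offDiag.filter (fun p => φ p = q)).card := by
    by_contra hcon
    push Not at hcon
    have hsum : O.offDiag.card = ∑ q ∈ T, (O.offDiag.filter (fun p => φ p = q)).card :=
      Finset.card_eq_sum_card_fiberwise hmaps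
    have h1 : ∑ q ∈ T, T.card * (O.offDiag.filter (fun p => φ p = q)).card
        < ∑ q ∈ T, O.offDiag.card := Finset.sum_lt_sum_of_nonempty hTne hcon
    rw [← Finset.mul_sum, ← hsum, Finset.sum_const, smul_eq_mul] at h1
    exact lt_irrefl _ h1
  obtain ⟨q, hqT, hq⟩ := hpig
  set P := O.offDiag.filter (fun p => φ p = q) with hP
  have hPne : P.Nonempty := by
    rw [← Finset.card_pos]
    by_contra h0
    have h0' : P.card = 0 := by omega
    rw [h0', mul_zero] at hq
    have : 0 < O.offDiag.card := Finset.card_pos.2 ⟨p0, hp0⟩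
    omega
  obtain ⟨p1, hp1⟩ := hPne
  have hp1' := Finset.mem_filter.1 hp1
  have hc1 : c (F p1) = q.1 := by have := congrArg Prod.fst hp1'.2; simpa [φ] using this
  have hr := hrep q.1 ⟨F p1, (hF p1 hp1'.1).1, hc1⟩
  refine ⟨rep q.1, hr.1, ((q.2 : ℝ) + 1) / 4, ?_⟩
  set A := O.filter (fun x => ⟪rep q.1, x⟫ ≤ ((q.2 : ℝ) + 1) / 4) with hA
  set B := O.filter (fun x => ((q.2 : ℝ) + 1) / 4 + 1 / 4 ≤ ⟪rep q.1, x⟫) with hB
  have hsub : P ⊆ B ×ˢ A := by
    intro p hp
    have hp' := Finset.mem_filter.1 hp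
    have hpo := Finset.mem_offDiag.1 hp'.1
    have hc : c (F p) = q.1 := by have := congrArg Prod.fst hp'.2; simpa [φ] using this
    have hfl : ⌊4 * ⟪rep q.1, p.2⟫⌋ = q.2 := by
      have := congrArg Prod.snd hp'.2
      simpa [φ, hc] using this
    have hfp := hF p hp'.1
    have hcc : c (F p) = c (rep q.1) := by rw [hc, hr.2]
    have h1 := h.close _ hfp.1 _ hr.1 hcc p.1 (hO hpo.1)
    have h2' := h.close _ hfp.1 _ hr.1 hcc p.2 (hO hpo.2.1)
    rw [abs_le] at h1 h2'
    have hlo : (q.2 : ℝ) ≤ 4 * ⟪rep q.1, p.2⟫ := by rw [← hfl]; exact Int.floor_le _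
    have hhi : 4 * ⟪rep q.1, p.2⟫ < (q.2 : ℝ) + 1 := by rw [← hfl]; exact Int.lt_floor_add_one _
    rw [Finset.mem_product, hA, hB, Finset.mem_filter, Finset.mem_filter]
    refine ⟨⟨hpo.1, ?_⟩, hpo.2.1, ?_⟩
    · have := hfp.2
      linarith [h1.1, h1.2, h2'.1, h2'.2]
    · linarith
  have hcard : P.card ≤ B.card * A.card := by
    rw [← Finset.card_product]; exact Finset.card_le_card hsub
  have hAO : A.card ≤ O.card := Finset.card_filter_le _ _
  have hBO : B.card ≤ O.card := Finset.card_filter_le _ _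
  rw [Finset.offDiag_card, hcardT] at hq
  have hq' : O.card * O.card ≤ 33 * t.card * (B.card * A.card) + O.card := by
    have : 33 * t.card * P.card ≤ 33 * t.card * (B.card * A.card) := Nat.mul_le_mul_left _ hcard
    omega
  have hOpos : 0 < O.card := by omega
  constructor
  · have h3 : O.card * O.card ≤ O.card * (33 * t.card * A.card + 1) := by
      calc O.card * O.card ≤ 33 * t.card * (B.card * A.card) + O.card := hq'
        _ ≤ 33 * t.card * (O.card * A.card) + O.card := by gcongr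
        _ = O.card * (33 * t.card * A.card + 1) := by ring
    have h4 := Nat.le_of_mul_le_mul_left h3 hOpos
    nlinarith
  · have h3 : O.card * O.card ≤ O.card * (33 * t.card * B.card + 1) := by
      calc O.card * O.card ≤ 33 * t.card * (B.card * A.card) + O.card := hq'
        _ ≤ 33 * t.card * (B.card * O.card) + O.card := by gcongr
        _ = O.card * (33 * t.card * B.card + 1) := by ring
    have h4 := Nat.le_of_mul_le_mul_left h3 hOpos
    nlinarith

end Vale.Agent.P126
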